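import Vale.Agent.P045.Defs

/-!
A kernel-checkable certificate format for cover bounds of `r`-partite hypergraphs.

A state is a list of edges, each a list of `r` labels. A state is dead for `H` when it has no label
preserving copy in `H`. To kill a state we name a set of vertices of size at most the cover budget:
some edge of `H` avoids its image, and this edge, seen through the labels of the state, is one of
finitely many patterns (`gen`). Each pattern added to the state must contain a copy of an earlier
dead state.
-/

namespace Vale.Agent.P045.Cert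

/-- The label in a part. -/
def lab : List ℕ → ℕ → ℕ
  | [], _ => 0
  | x :: _, 0 => x
  | _ :: xs, n + 1 => lab xs n

/-- Change the label in a part. -/
def setLab : List ℕ → ℕ → ℕ → List ℕ
  | [], _, _ => []
  | _ :: xs, 0, l => l :: xs
  | x :: xs, n + 1, l => x :: setLab xs n l

lemma lab_setLab_self : ∀ (e : List ℕ) (p l : ℕ), p < e.length → lab (setLab e p l) p = l
  | [], _, _, h => by simp at h
  | _ :: _, 0, _, _ => rfl
  | _ :: xs, n + 1, l, h => lab_setLab_self xs n l (by simpa using h)

lemma lab_setLab_ne : ∀ (e : List ℕ) (p q l : ℕ), q ≠ p → lab (setLab e p l) q = lab e q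
  | [], _, _, _, _ => rfl
  | _ :: _, 0, 0, _, h => absurd rfl h
  | _ :: _, 0, _ + 1, _, _ => rfl
  | _ :: _, _ + 1, 0, _, _ => rfl
  | _ :: xs, p + 1, q + 1, l, h => lab_setLab_ne xs p q l (fun e => h (by omega))

lemma length_setLab : ∀ (e : List ℕ) (p l : ℕ), (setLab e p l).length = e.length
  | [], _, _ => rfl
  | _ :: _, 0, _ => rfl
  | _ :: xs, n + 1, l => by simp [setLab, length_setLab xs n l]

lemma ext_lab : ∀ (e f : List ℕ), e.length = f.length →
    (∀ p, p < e.length → lab e p = lab f p) → e = f
  | [], [], _, _ => rfl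
  | [], _ :: _, h, _ => by simp at h
  | _ :: _, [], h, _ => by simp at h
  | x :: xs, y :: ys, h, hl => by
    have h0 : x = y := hl 0 (by simp)
    have h1 : xs = ys := ext_lab xs ys (by simpa using h) fun p hp =>
      hl (p + 1) (by simpa using hp)
    rw [h0, h1]

lemma lab_mem : ∀ (e : List ℕ) (p : ℕ), p < e.length → lab e p ∈ e
  | [], _, h => by simp at h
  | _ :: _, 0, _ => by simp [lab]
  | _ :: xs, n + 1, h => List.mem_cons_of_mem _ (lab_mem xs n (by simpa using h))

lemma lab_map_range (r : ℕ) (g : ℕ → ℕ) : ∀ p, p < r → lab ((List.range r).map g) p = g p := by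
  have key : ∀ (n s p : ℕ), p < n →
      lab ((List.range' s n).map g) p = g (s + p) := by
    intro n
    induction n with
    | zero => intro s p h; omega
    | succ n ih =>
      intro s p h
      rw [List.range'_succ, List.map_cons]
      cases p with
      | zero => rfl
      | succ q =>
        have := ih (s + 1) q (by omega)
        simp only [lab]
        rw [this]
        congr 1
        omega
  intro p hp
  rw [List.range_eq_range']
  simpa using key r 0 p hp

/-- Two tuples differ in every part. -/
def disjB : List ℕ → List ℕ → Bool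
  | x :: xs, y :: ys => !(Nat.beq x y) && disjB xs ys
  | _, _ => true

lemma disjB_spec : ∀ (g h : List ℕ), disjB g h = true → g.length = h.length →
    ∀ p, p < g.length → lab g p ≠ lab h p
  | [], _, _, _, p, hp => by simp at hp
  | _ :: _, [], _, hl, _, _ => by simp at hl
  | x :: xs, y :: ys, hd, hl, p, hp => by
    simp only [disjB, Bool.and_eq_true, Bool.not_eq_true'] at hd
    cases p with
    | zero =>
      intro he
      have h1 : x = y := he
      have h2 : Nat.beq x y = true := by rw [h1]; exact Nat.beq_refl y
      rw [h2] at hd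
      simp at hd
    | succ q =>
      exact disjB_spec xs ys hd.2 (by simpa using hl) q (by simpa using hp)

/-- Search helper for `findM`: try each edge in turn. -/
def findAux (rc : List (List ℕ) → Option (List (List ℕ))) :
    List (List ℕ) → Option (List (List ℕ))
  | [] => none
  | x :: xs =>
    match rc (xs.filter (disjB x)) with
    | some M => some (x :: M)
    | none => findAux rc xs

/-- Find `k` pairwise disjoint tuples in a list. -/
def findM : ℕ → List (List ℕ) → Option (List (List ℕ))
  | 0, _ => some []
  | k + 1, S => findAux (findM k) S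

/-- The disjointness relation used for matchings of tuples. -/
def DisjRel (a b : List ℕ) : Prop := disjB a b = true

lemma findAux_spec {k : ℕ} {rc : List (List ℕ) → Option (List (List ℕ))}
    (hrc : ∀ S M, rc S = some M → (∀ g ∈ M, g ∈ S) ∧ M.Pairwise DisjRel ∧ M.length = k) :
    ∀ (S M : List (List ℕ)), findAux rc S = some M →
      (∀ g ∈ M, g ∈ S) ∧ M.Pairwise DisjRel ∧ M.length = k + 1 := by
  intro S
  induction S with
  | nil => intro M h; simp [findAux] at h
  | cons x xs ih =>
    intro M h
    simp only [findAux] at h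
    split at h
    · rename_i M' hM'
      simp only [Option.some.injEq] at h
      subst h
      obtain ⟨h1, h2, h3⟩ := hrc _ _ hM'
      refine ⟨?_, ?_, by simp [h3]⟩
      · intro g hg
        rw [List.mem_cons] at hg
        rcases hg with rfl | hg
        · simp
        · have := h1 g hg
          rw [List.mem_filter] at this
          exact List.mem_cons_of_mem _ this.1
      · rw [List.pairwise_cons]
        refine ⟨?_, h2⟩
        intro g hg
        have := h1 g hg
        rw [List.mem_filter] at this
        exact this.2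
    · obtain ⟨h1, h2, h3⟩ := ih M h
      exact ⟨fun g hg => List.mem_cons_of_mem _ (h1 g hg), h2, h3⟩

lemma findM_spec : ∀ (k : ℕ) (S M : List (List ℕ)), findM k S = some M →
    (∀ g ∈ M, g ∈ S) ∧ M.Pairwise DisjRel ∧ M.length = k := by
  intro k
  induction k with
  | zero =>
    intro S M h
    simp only [findM, Option.some.injEq] at h
    subst h
    simp
  | succ k ih =>
    intro S M h
    exact findAux_spec ih S M h

lemma beq_true {a b : ℕ} : Nat.beq a b = true ↔ a = b :=
  ⟨Nat.eq_of_beq_eq_true, fun h => h ▸ Nat.beq_refl a⟩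

/-- Membership in a list of vertices. -/
def banned : List (ℕ × ℕ) → ℕ → ℕ → Bool
  | [], _, _ => false
  | v :: rest, p, l => (Nat.beq p v.1 && Nat.beq l v.2) || banned rest p l

lemma banned_iff {bans : List (ℕ × ℕ)} {p l : ℕ} : banned bans p l = true ↔ (p, l) ∈ bans := by
  induction bans with
  | nil => simp [banned]
  | cons x xs ih =>
    obtain ⟨q, m⟩ := x
    simp only [banned, Bool.or_eq_true, Bool.and_eq_true, beq_true, ih,
      List.mem_cons, Prod.mk.injEq]

/-- The tuples not met by the vertex `(p, l)`. -/
def filt (T : List (List ℕ)) (p l : ℕ) : List (List ℕ) :=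
  T.filter (fun g => !(Nat.beq (lab g p) l))

/-- The vertices of the tuples of `M` in the parts `ua`. -/
def cands (M : List (List ℕ)) (ua : List ℕ) : List (ℕ × ℕ) :=
  ua.flatMap (fun p => M.map (fun g => (p, lab g p)))

/-- Branch on the vertices of a list, in order. A later branch bans the earlier vertices. -/
def branch (rc : List (ℕ × ℕ) → List ℕ → List ℕ → List (List ℕ) → List (List ℕ))
    (cur ua : List ℕ) (T : List (List ℕ)) :
    List (ℕ × ℕ) → List (ℕ × ℕ) → List (List ℕ)
  | [], _ => []
  | v :: vs, bans =>
    (if banned bans v.1 v.2 then [] else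
      rc bans (setLab cur v.1 v.2) (ua.erase v.1) (filt T v.1 v.2)) ++
      branch rc cur ua T vs (v :: bans)

/-- Run over the labels of one part. -/
def labelsLoop (rc : List (ℕ × ℕ) → List ℕ → List ℕ → List (List ℕ) → List (List ℕ))
    (bans : List (ℕ × ℕ)) (cur : List ℕ) (p : ℕ) (ua : List ℕ) (T : List (List ℕ)) :
    List ℕ → List (List ℕ)
  | [] => []
  | l :: ls =>
    (if banned bans p l then [] else rc bans (setLab cur p l) ua (filt T p l)) ++
      labelsLoop rc bans cur p ua T ls

/-- All patterns compatible with a partial assignment `cur` (with unassigned parts `ua`), the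
banned vertices `bans` and the requirement of meeting every `nu`-matching of `T`. -/
def gen (nu : ℕ) (nl : List ℕ) :
    ℕ → List (ℕ × ℕ) → List ℕ → List ℕ → List (List ℕ) → List (List ℕ)
  | 0, _, cur, _, _ => [cur]
  | fuel + 1, bans, cur, ua, T =>
    match findM nu T with
    | some M => branch (gen nu nl fuel) cur ua T (cands M ua) bans
    | none =>
      match ua with
      | [] => [cur]
      | p :: ps => labelsLoop (gen nu nl fuel) bans cur p ps T (List.range (lab nl p + 1))

/-- The conditions on a pattern that `gen` must list. -/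
structure Valid (r nu : ℕ) (nl : List ℕ) (bans : List (ℕ × ℕ)) (cur ua : List ℕ)
    (T : List (List ℕ)) (f : List ℕ) : Prop where
  lenf : f.length = r
  lenc : cur.length = r
  uar : ∀ p ∈ ua, p < r
  fixed : ∀ p, p < r → p ∉ ua → lab f p = lab cur p
  range : ∀ p, p < r → lab f p ≤ lab nl p
  avoid : ∀ p, p < r → (p, lab f p) ∉ bans
  hit : ∀ M : List (List ℕ), (∀ g ∈ M, g ∈ T) → M.Pairwise DisjRel → M.length = nu →
    ∃ g ∈ M, ∃ p ∈ ua, lab f p = lab g p

lemma Valid.step {r nu : ℕ} {nl : List ℕ} {bans : List (ℕ × ℕ)} {cur ua ua' : List ℕ}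
    {T : List (List ℕ)} {f : List ℕ} (hV : Valid r nu nl bans cur ua T f) {p : ℕ} (hp : p < r)
    (hua' : ∀ q, q ∈ ua → q ≠ p → q ∈ ua') (hua'' : ∀ q, q ∈ ua' → q ∈ ua) :
    Valid r nu nl bans (setLab cur p (lab f p)) ua' (filt T p (lab f p)) f := by
  refine ⟨hV.lenf, by rw [length_setLab]; exact hV.lenc, fun q hq => hV.uar q (hua'' q hq),
    ?_, hV.range, hV.avoid, ?_⟩
  · intro q hq hq'
    by_cases hqp : q = p
    · subst hqp
      rw [lab_setLab_self _ _ _ (by rw [hV.lenc]; exact hq)]
    · rw [lab_setLab_ne _ _ _ _ hqp]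
      apply hV.fixed q hq
      intro hq2
      exact hq' (hua' q hq2 hqp)
  · intro M hM hpw hlen
    have hM' : ∀ g ∈ M, g ∈ T ∧ Nat.beq (lab g p) (lab f p) = false := by
      intro g hg
      have := hM g hg
      rw [filt, List.mem_filter] at this
      simpa using this
    obtain ⟨g, hg, q, hq, hqe⟩ := hV.hit M (fun g hg => (hM' g hg).1) hpw hlen
    refine ⟨g, hg, q, ?_, hqe⟩
    apply hua' q hq
    rintro rfl
    have h2 := (hM' g hg).2
    rw [hqe, Nat.beq_refl] at h2
    simp at h2

lemma branch_complete {r nu : ℕ} {nl : List ℕ} {f : List ℕ} {fuel : ℕ}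
    {rc : List (ℕ × ℕ) → List ℕ → List ℕ → List (List ℕ) → List (List ℕ)}
    (hrc : ∀ bans cur ua T, ua.length ≤ fuel → Valid r nu nl bans cur ua T f →
      f ∈ rc bans cur ua T)
    {cur ua : List ℕ} {T : List (List ℕ)} (hua : ua.length ≤ fuel + 1) :
    ∀ (vs bans : List (ℕ × ℕ)), (∀ v ∈ vs, v.1 ∈ ua) → (∃ v ∈ vs, lab f v.1 = v.2) →
      Valid r nu nl bans cur ua T f → f ∈ branch rc cur ua T vs bans := by
  intro vs
  induction vs with
  | nil =>
    intro bans _ h _
    obtain ⟨v, hv, _⟩ := h
    simp at hv
  | cons v vs ih =>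
    intro bans hvs hex hV
    obtain ⟨q, l⟩ := v
    simp only [branch, List.mem_append]
    have hqu : q ∈ ua := hvs (q, l) (by simp)
    have hqr : q < r := hV.uar q hqu
    by_cases hfq : lab f q = l
    · left
      subst hfq
      have hnb : banned bans q (lab f q) = false := by
        rw [Bool.eq_false_iff, Ne, banned_iff]
        exact hV.avoid q hqr
      rw [hnb]
      simp only [Bool.false_eq_true, if_false]
      apply hrc
      · have := List.length_erase_of_mem hqu
        omega
      · exact hV.step hqr (fun p hp hpq => (List.mem_erase_of_ne hpq).mpr hp)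
          (fun p hp => List.mem_of_mem_erase hp)
    · right
      apply ih
      · intro v hv
        exact hvs v (by simp [hv])
      · obtain ⟨v, hv, hv'⟩ := hex
        rw [List.mem_cons] at hv
        rcases hv with rfl | hv
        · exact absurd hv' hfq
        · exact ⟨v, hv, hv'⟩
      · refine ⟨hV.lenf, hV.lenc, hV.uar, hV.fixed, hV.range, ?_, hV.hit⟩
        intro p hp hb
        rw [List.mem_cons] at hb
        rcases hb with hb | hb
        · simp only [Prod.mk.injEq] at hb
          obtain ⟨rfl, h2⟩ := hb
          exact hfq h2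
        · exact hV.avoid p hp hb

lemma labelsLoop_complete {f : List ℕ}
    {rc : List (ℕ × ℕ) → List ℕ → List ℕ → List (List ℕ) → List (List ℕ)}
    {bans : List (ℕ × ℕ)} {cur : List ℕ} {p : ℕ} {ua : List ℕ} {T : List (List ℕ)} :
    ∀ (ls : List ℕ), lab f p ∈ ls → (p, lab f p) ∉ bans →
      f ∈ rc bans (setLab cur p (lab f p)) ua (filt T p (lab f p)) →
      f ∈ labelsLoop rc bans cur p ua T ls := by
  intro ls
  induction ls with
  | nil => intro h; simp at h
  | cons l ls ih =>
    intro hl hb hf
    simp only [labelsLoop, List.mem_append]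
    rw [List.mem_cons] at hl
    by_cases hfl : lab f p = l
    · left
      subst hfl
      have hnb : banned bans p (lab f p) = false := by
        rw [Bool.eq_false_iff, Ne, banned_iff]
        exact hb
      rw [hnb]
      simpa using hf
    · right
      apply ih _ hb hf
      rcases hl with hl | hl
      · exact absurd hl hfl
      · exact hl

lemma cands_mem {M : List (List ℕ)} {ua : List ℕ} {g : List ℕ} (hg : g ∈ M) {q : ℕ} (hq : q ∈ ua)
    {f : List ℕ} (hf : lab f q = lab g q) : ∃ v ∈ cands M ua, lab f v.1 = v.2 := by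
  refine ⟨(q, lab g q), ?_, hf⟩
  rw [cands, List.mem_flatMap]
  exact ⟨q, hq, List.mem_map.mpr ⟨g, hg, rfl⟩⟩

lemma cands_part {M : List (List ℕ)} {ua : List ℕ} : ∀ v ∈ cands M ua, v.1 ∈ ua := by
  intro v hv
  rw [cands, List.mem_flatMap] at hv
  obtain ⟨p, hp, hv⟩ := hv
  rw [List.mem_map] at hv
  obtain ⟨g, _, rfl⟩ := hv
  exact hp

/-- Completeness of `gen`. -/
theorem gen_complete {r nu : ℕ} {nl f : List ℕ} :
    ∀ (fuel : ℕ) (bans : List (ℕ × ℕ)) (cur ua : List ℕ) (T : List (List ℕ)),
      ua.length ≤ fuel → Valid r nu nl bans cur ua T f → f ∈ gen nu nl fuel bans cur ua T := by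
  intro fuel
  induction fuel with
  | zero =>
    intro bans cur ua T hua hV
    have : ua = [] := List.length_eq_zero_iff.mp (by omega)
    subst this
    simp only [gen, List.mem_singleton]
    exact ext_lab _ _ (by rw [hV.lenf, hV.lenc]) fun p hp =>
      hV.fixed p (by rw [hV.lenf] at hp; exact hp) (by simp)
  | succ fuel ih =>
    intro bans cur ua T hua hV
    simp only [gen]
    split
    · rename_i M hM
      obtain ⟨h1, h2, h3⟩ := findM_spec _ _ _ hM
      obtain ⟨g, hg, q, hq, hqe⟩ := hV.hit M h1 h2 h3
      exact branch_complete (fun bans cur ua T h1 h2 => ih bans cur ua T h1 h2) hua _ bans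
        (fun v hv => cands_part v hv) (cands_mem hg hq hqe) hV
    · cases ua with
      | nil =>
        simp only [List.mem_singleton]
        exact ext_lab _ _ (by rw [hV.lenf, hV.lenc]) fun p hp =>
          hV.fixed p (by rw [hV.lenf] at hp; exact hp) (by simp)
      | cons p ps =>
        have hpr : p < r := hV.uar p (by simp)
        apply labelsLoop_complete
        · rw [List.mem_range]
          have := hV.range p hpr
          omega
        · exact hV.avoid p hpr
        · apply ih
          · simpa using hua
          · refine hV.step hpr ?_ (fun q hq => List.mem_cons_of_mem _ hq)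
            intro q hq hqp
            exact (List.mem_cons.mp hq).resolve_left hqp

/-! ### Embedding checks -/

/-- Equality of tuples. -/
def eqB : List ℕ → List ℕ → Bool
  | [], [] => true
  | x :: xs, y :: ys => Nat.beq x y && eqB xs ys
  | _, _ => false

lemma eqB_eq : ∀ {a b : List ℕ}, eqB a b = true → a = b
  | [], [], _ => rfl
  | [], _ :: _, h => by simp [eqB] at h
  | _ :: _, [], h => by simp [eqB] at h
  | x :: xs, y :: ys, h => by
    simp only [eqB, Bool.and_eq_true, beq_true] at h
    rw [h.1, eqB_eq h.2]

/-- Membership of a tuple in a state. -/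
def memB (a : List ℕ) : List (List ℕ) → Bool
  | [] => false
  | b :: bs => eqB a b || memB a bs

lemma memB_mem {a : List ℕ} : ∀ {K : List (List ℕ)}, memB a K = true → a ∈ K
  | [], h => by simp [memB] at h
  | b :: bs, h => by
    simp only [memB, Bool.or_eq_true] at h
    rcases h with h | h
    · rw [eqB_eq h]; simp
    · exact List.mem_cons_of_mem _ (memB_mem h)

/-- No repetition. -/
def nodupB : List ℕ → Bool
  | [] => true
  | x :: xs => xs.all (fun y => !(Nat.beq x y)) && nodupB xs

lemma nodupB_inj : ∀ (l : List ℕ), nodupB l = true → ∀ a b, a < l.length → b < l.length →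
    lab l a = lab l b → a = b
  | [], _, a, _, ha, _, _ => by simp at ha
  | x :: xs, h, a, b, ha, hb, he => by
    simp only [nodupB, Bool.and_eq_true, List.all_eq_true, Bool.not_eq_true'] at h
    have hx : ∀ c, c < xs.length → lab xs c ≠ x := by
      intro c hc hce
      have h1 := h.1 _ (lab_mem xs c hc)
      rw [hce, Nat.beq_refl] at h1
      simp at h1
    cases a with
    | zero =>
      cases b with
      | zero => rfl
      | succ b => exact absurd he.symm (hx b (by simpa using hb))
    | succ a =>
      cases b with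
      | zero => exact absurd he (hx a (by simpa using ha))
      | succ b =>
        have := nodupB_inj xs h.2 a b (by simpa using ha) (by simpa using hb) he
        rw [this]

/-- A row of a table. -/
def row : List (List ℕ) → ℕ → List ℕ
  | [], _ => []
  | x :: _, 0 => x
  | _ :: xs, n + 1 => row xs n

/-- The image of the tuple `d` of a smaller state: part `p` of the image comes from part
`lab rho p` of `d`, through the table `tau`. -/
def mapE (r : ℕ) (rho : List ℕ) (tau : List (List ℕ)) (d : List ℕ) : List ℕ :=
  (List.range r).map (fun p => lab (row tau p) (lab d (lab rho p)))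

/-- `rho` lists `r` different parts. -/
def okRho (r : ℕ) (rho : List ℕ) : Bool :=
  Nat.beq rho.length r && nodupB rho && rho.all (fun p => Nat.blt p r)

/-- The check that `K'` contains a copy of `Kj`, through `rho` and `tau`. -/
def okHint (r : ℕ) (rho : List ℕ) (tau : List (List ℕ)) (Kj K' : List (List ℕ)) : Bool :=
  okRho r rho && (List.range r).all (fun p => nodupB (row tau p)) &&
    Kj.all (fun d => (List.range r).all (fun p => Nat.blt (lab d (lab rho p)) (row tau p).length) &&
      memB (mapE r rho tau d) K')

/-- The check for one state: the state `K` with the label bounds `nl`, the named vertices `C` and,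
for each pattern listed by `gen`, the index of an earlier state and the copy of it. -/
def okHints (r : ℕ) (K : List (List ℕ)) (tbl : ℕ → List (List ℕ)) (i : ℕ) :
    List (List ℕ) → List (ℕ × List ℕ × List (List ℕ)) → Bool
  | [], _ => true
  | _ :: _, [] => false
  | f :: fs, h :: hs =>
    Nat.blt h.1 i && okHint r h.2.1 h.2.2 (tbl h.1) (K ++ [f]) && okHints r K tbl i fs hs

/-- The whole check for state number `i`. -/
def okEntry (r nu cb : ℕ) (tbl : ℕ → List (List ℕ)) (i : ℕ) (nl : List ℕ) (C : List (ℕ × ℕ))
    (hs : List (ℕ × List ℕ × List (List ℕ))) : Bool :=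
  let K := tbl i
  K.all (fun a => Nat.beq a.length r &&
    (List.range r).all (fun p => Nat.blt (lab a p) (lab nl p))) &&
  Nat.ble C.length cb &&
  C.all (fun v => Nat.blt v.1 r && Nat.blt v.2 (lab nl v.1)) &&
  okHints r K tbl i (gen nu nl (r + 1) C (List.replicate r 0) (List.range r) K) hs

lemma okHints_spec {r : ℕ} {K : List (List ℕ)} {tbl : ℕ → List (List ℕ)} {i : ℕ} :
    ∀ (G : List (List ℕ)) (hs : List (ℕ × List ℕ × List (List ℕ))), okHints r K tbl i G hs = true →
      ∀ f ∈ G, ∃ j rho tau, j < i ∧ okHint r rho tau (tbl j) (K ++ [f]) = true := by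
  intro G
  induction G with
  | nil => intro hs _ f hf; simp at hf
  | cons g gs ih =>
    intro hs h f hf
    cases hs with
    | nil => simp [okHints] at h
    | cons x xs =>
      simp only [okHints, Bool.and_eq_true] at h
      rw [List.mem_cons] at hf
      rcases hf with rfl | hf
      · refine ⟨x.1, x.2.1, x.2.2, ?_, h.1.2⟩
        simpa [Nat.blt_eq] using h.1.1
      · exact ih xs h.2 f hf

/-! ### Semantics -/

variable {r : ℕ} {V : Type*}

/-- A copy of the state `K` in `H`: the part `σ i` of the state goes to part `i` of `H`, with labels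
sent to vertices by `φ i`, injectively on the labels that occur. -/
structure Emb (H : Finset (Fin r → V)) (σ : Equiv.Perm (Fin r)) (φ : Fin r → ℕ → V)
    (K : List (List ℕ)) : Prop where
  mem : ∀ e ∈ K, (fun i => φ i (lab e (σ i))) ∈ H
  inj : ∀ i, ∀ a ∈ K, ∀ b ∈ K, φ i (lab a (σ i)) = φ i (lab b (σ i)) → lab a (σ i) = lab b (σ i)

/-- A state is dead when it has no copy in `H`. -/
def Dead (H : Finset (Fin r → V)) (K : List (List ℕ)) : Prop :=
  ∀ σ φ, ¬ Emb H σ φ K

/-- The permutation of the parts given by a checked list. -/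
noncomputable def rhoPerm {rho : List ℕ} (h : okRho r rho = true) : Equiv.Perm (Fin r) :=
  have h' : Nat.beq rho.length r = true ∧ nodupB rho = true ∧ rho.all (fun p => Nat.blt p r) = true := by
    simpa [okRho, Bool.and_eq_true, and_assoc] using h
  have hlen : rho.length = r := Nat.eq_of_beq_eq_true h'.1
  have hlt : ∀ i : Fin r, lab rho i < r := by
    intro i
    have h1 : lab rho i ∈ rho := lab_mem rho i (by rw [hlen]; exact i.2)
    have h2 := List.all_eq_true.mp h'.2.2 _ h1
    simpa [Nat.blt_eq] using h2
  Equiv.ofBijective (fun i : Fin r => (⟨lab rho i, hlt i⟩ : Fin r))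
    (Finite.injective_iff_bijective.mp (by
      intro a b hab
      have h2 : lab rho a = lab rho b := congrArg Fin.val hab
      exact Fin.ext (nodupB_inj rho h'.2.1 a b (by rw [hlen]; exact a.2)
        (by rw [hlen]; exact b.2) h2)))

lemma rhoPerm_val {rho : List ℕ} (h : okRho r rho = true) (i : Fin r) :
    ((rhoPerm h i : Fin r) : ℕ) = lab rho i := rfl

/-- A copy of `K'` gives a copy of every state that `okHint` finds inside `K'`. -/
lemma Emb.of_hint {H : Finset (Fin r → V)} {σ : Equiv.Perm (Fin r)} {φ : Fin r → ℕ → V}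
    {K' Kj : List (List ℕ)} {rho : List ℕ} {tau : List (List ℕ)} (hE : Emb H σ φ K')
    (h : okHint r rho tau Kj K' = true) :
    ∃ σ' φ', Emb H σ' φ' Kj := by
  simp only [okHint, Bool.and_eq_true, List.all_eq_true, List.mem_range] at h
  obtain ⟨⟨hrho, htau⟩, hK⟩ := h
  refine ⟨σ.trans (rhoPerm hrho), fun i l => φ i (lab (row tau (σ i)) l), ?_, ?_⟩
  · intro d hd
    have h1 := (hK d hd).2
    have h2 := hE.mem _ (memB_mem h1)
    convert h2 using 2 with i
    have h3 : lab (mapE r rho tau d) (σ i) =
        lab (row tau (σ i)) (lab d (lab rho (σ i))) :=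
      lab_map_range r (fun p => lab (row tau p) (lab d (lab rho p))) _ (σ i).2
    rw [h3]
    rfl
  · intro i a ha b hb he
    have ha1 := hK a ha
    have hb1 := hK b hb
    have hai := hE.inj i _ (memB_mem ha1.2) _ (memB_mem hb1.2)
    have h3 : ∀ d, lab (mapE r rho tau d) (σ i) =
        lab (row tau (σ i)) (lab d (lab rho (σ i))) := fun d =>
      lab_map_range r (fun p => lab (row tau p) (lab d (lab rho p))) _ (σ i).2
    rw [h3, h3] at hai
    have he' : φ i (lab (row tau (σ i)) (lab a (lab rho (σ i)))) =
        φ i (lab (row tau (σ i)) (lab b (lab rho (σ i)))) := he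
    have h4 := hai he'
    have h5 := nodupB_inj _ (htau (σ i) (σ i).2) _ _
      (by simpa [Nat.blt_eq] using ha1.1 (σ i) (σ i).2)
      (by simpa [Nat.blt_eq] using hb1.1 (σ i) (σ i).2) h4
    exact h5

/-- `H` is a counterexample for the matching bound `nu` and the cover budget `cb`. -/
structure Bad (H : Finset (Fin r → V)) (nu cb : ℕ) : Prop where
  matching : MatchingNumberLE H nu
  nocover : ∀ C : Finset (Fin r × V), C.card ≤ cb → ¬ IsCover H C

open Classical in
/-- The main step: if the check passes for a state whose earlier states are dead, it is dead. -/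
theorem dead_step (hr : 0 < r) {H : Finset (Fin r → V)} {nu cb : ℕ} (hB : Bad H nu cb)
    {tbl : ℕ → List (List ℕ)} {i : ℕ} {nl : List ℕ} {C : List (ℕ × ℕ)}
    {hs : List (ℕ × List ℕ × List (List ℕ))} (hok : okEntry r nu cb tbl i nl C hs = true)
    (hprev : ∀ j, j < i → Dead H (tbl j)) : Dead H (tbl i) := by
  intro σ φ hE
  simp only [okEntry, Bool.and_eq_true, List.all_eq_true, List.mem_range] at hok
  obtain ⟨⟨⟨hK, hCl⟩, hC⟩, hH⟩ := hok
  set K := tbl i with hKdef
  have hKlen : ∀ a ∈ K, a.length = r := fun a ha => Nat.eq_of_beq_eq_true (hK a ha).1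
  have hKnl : ∀ a ∈ K, ∀ p, p < r → lab a p < lab nl p := by
    intro a ha p hp
    simpa [Nat.blt_eq] using (hK a ha).2 p hp
  have hC' : ∀ v ∈ C, v.1 < r ∧ v.2 < lab nl v.1 := by
    intro v hv
    have := hC v hv
    simpa [Nat.blt_eq, Bool.and_eq_true] using this
  -- the image of the named vertices
  let g : ℕ × ℕ → Fin r × V := fun v =>
    (σ.symm ⟨v.1 % r, Nat.mod_lt _ hr⟩, φ (σ.symm ⟨v.1 % r, Nat.mod_lt _ hr⟩) v.2)
  have hcard : ((C.map g).toFinset).card ≤ cb := by
    refine le_trans (List.toFinset_card_le _) ?_
    rw [List.length_map]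
    exact Nat.le_of_ble_eq_true hCl
  have hnc := hB.nocover _ hcard
  simp only [IsCover, not_forall, not_exists] at hnc
  obtain ⟨x, hxH, hx⟩ := hnc
  -- the pattern of `x`
  have hσ : ∀ i' : Fin r, σ.symm ⟨(σ i' : ℕ), (σ i').2⟩ = i' := fun i' => by simp
  let P : ℕ → ℕ → Prop := fun p l => ∃ a ∈ K, lab a p = l ∧ ∃ hp : p < r,
    φ (σ.symm ⟨p, hp⟩) l = x (σ.symm ⟨p, hp⟩)
  let fv : ℕ → ℕ := fun p => if h : ∃ l, P p l then h.choose else lab nl p
  let f : List ℕ := (List.range r).map fv
  have hlab : ∀ p, p < r → lab f p = fv p := fun p hp => lab_map_range r fv p hp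
  have hflen : f.length = r := by simp [f]
  -- the label of `x` in a part
  have hfv : ∀ p (hp : p < r), (∃ a ∈ K, lab a p = fv p ∧ φ (σ.symm ⟨p, hp⟩) (fv p) = x (σ.symm ⟨p, hp⟩))
      ∨ (fv p = lab nl p ∧ ∀ a ∈ K, φ (σ.symm ⟨p, hp⟩) (lab a p) ≠ x (σ.symm ⟨p, hp⟩)) := by
    intro p hp
    by_cases h : ∃ l, P p l
    · left
      have h1 : fv p = h.choose := dif_pos h
      obtain ⟨a, ha, hal, _, hφ⟩ := h.choose_spec
      refine ⟨a, ha, ?_, ?_⟩
      · rw [h1]; exact hal
      · rw [h1]; exact hφ
    · right
      refine ⟨dif_neg h, ?_⟩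
      intro a ha he
      exact h ⟨lab a p, a, ha, rfl, hp, he⟩
  have hfvσ : ∀ i' : Fin r, (∃ a ∈ K, lab a (σ i') = fv (σ i') ∧ φ i' (fv (σ i')) = x i')
      ∨ (fv (σ i') = lab nl (σ i') ∧ ∀ a ∈ K, φ i' (lab a (σ i')) ≠ x i') := by
    intro i'
    have := hfv (σ i') (σ i').2
    simpa only [Fin.eta, Equiv.symm_apply_apply] using this
  have hvalid : Valid r nu nl C (List.replicate r 0) (List.range r) K f := by
    refine ⟨hflen, by simp, fun p hp => List.mem_range.mp hp, ?_, ?_, ?_, ?_⟩
    · intro p hp hp'
      exact absurd (List.mem_range.mpr hp) hp'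
    · intro p hp
      rw [hlab p hp]
      rcases hfv p hp with ⟨a, ha, hal, _⟩ | ⟨h1, _⟩
      · rw [← hal]; exact (hKnl a ha p hp).le
      · exact h1.le
    · intro p hp hmem
      rw [hlab p hp] at hmem
      rcases hfv p hp with ⟨a, ha, hal, hφ⟩ | ⟨h1, _⟩
      · apply hx (σ.symm ⟨p, hp⟩)
        rw [List.mem_toFinset, List.mem_map]
        refine ⟨(p, fv p), hmem, ?_⟩
        have hmod : (⟨p % r, Nat.mod_lt _ hr⟩ : Fin r) = ⟨p, hp⟩ := Fin.ext (Nat.mod_eq_of_lt hp)
        simp only [g, hmod, hφ]
      · have := (hC' _ hmem).2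
        simp only [h1] at this
        exact lt_irrefl _ this
    · intro M hM hpw hMlen
      by_contra hno
      push Not at hno
      -- `x` is disjoint from the image of `M`
      have hno' : ∀ g' ∈ M, ∀ p, p < r → lab f p ≠ lab g' p := fun g' hg' p hp =>
        hno g' hg' p (List.mem_range.mpr hp)
      let im : List ℕ → (Fin r → V) := fun e j => φ j (lab e (σ j))
      have hm1 : ∀ e ∈ x :: M.map im, e ∈ H := by
        intro e he
        rw [List.mem_cons, List.mem_map] at he
        rcases he with rfl | ⟨d, hd, rfl⟩
        · exact hxH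
        · exact hE.mem d (hM d hd)
      have hm2 : (x :: M.map im).Pairwise EdgeDisjoint := by
        rw [List.pairwise_cons]
        constructor
        · intro e he
          rw [List.mem_map] at he
          obtain ⟨d, hd, rfl⟩ := he
          intro j hj
          have h1 := hno' d hd (σ j) (σ j).2
          rw [hlab _ (σ j).2] at h1
          rcases hfvσ j with ⟨a, ha, hal, hφ⟩ | ⟨_, h2⟩
          · apply h1
            have h3 : φ j (lab a (σ j)) = φ j (lab d (σ j)) := by
              rw [hal, hφ]; exact hj
            rw [← hal]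
            exact hE.inj j a ha d (hM d hd) h3
          · exact h2 d (hM d hd) hj.symm
        · rw [List.pairwise_map]
          refine List.Pairwise.imp_of_mem ?_ hpw
          intro a b ha hb hab j he
          have h1 := hE.inj j a (hM a ha) b (hM b hb) he
          exact disjB_spec a b hab (by rw [hKlen a (hM a ha), hKlen b (hM b hb)]) (σ j)
            (by rw [hKlen a (hM a ha)]; exact (σ j).2) h1
      have := hB.matching _ hm1 hm2
      simp only [List.length_cons, List.length_map, hMlen] at this
      omega
  have hfG : f ∈ gen nu nl (r + 1) C (List.replicate r 0) (List.range r) K :=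
    gen_complete (r + 1) C _ _ K (by simp) hvalid
  obtain ⟨j, rho, tau, hj, hokj⟩ := okHints_spec _ _ hH f hfG
  -- the copy of `K ++ [f]`
  let φ' : Fin r → ℕ → V := fun i' => Function.update (φ i') (lab nl (σ i')) (x i')
  have hφ'K : ∀ i', ∀ a ∈ K, φ' i' (lab a (σ i')) = φ i' (lab a (σ i')) := by
    intro i' a ha
    apply Function.update_of_ne
    exact (hKnl a ha _ (σ i').2).ne
  have hφ'f : ∀ i', φ' i' (lab f (σ i')) = x i' := by
    intro i'
    rw [hlab _ (σ i').2]
    rcases hfvσ i' with ⟨a, ha, hal, hφ⟩ | ⟨h1, _⟩
    · rw [← hal, hφ'K i' a ha, hal, hφ]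
    · rw [h1]
      exact Function.update_self _ _ _
  have hEmb : Emb H σ φ' (K ++ [f]) := by
    constructor
    · intro e he
      rw [List.mem_append, List.mem_singleton] at he
      rcases he with he | rfl
      · have h1 := hE.mem e he
        convert h1 using 2 with i'
        exact hφ'K i' e he
      · convert hxH using 2 with i'
        exact hφ'f i'
    · intro i' a ha b hb he
      rw [List.mem_append, List.mem_singleton] at ha hb
      have hfv' : ∀ c ∈ K, φ i' (lab c (σ i')) = x i' → lab c (σ i') = lab f (σ i') := by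
        intro c hc hce
        rw [hlab _ (σ i').2]
        rcases hfvσ i' with ⟨a', ha', hal, hφ⟩ | ⟨_, h2⟩
        · rw [← hal]
          apply hE.inj i' c hc a' ha'
          rw [hce, hal, hφ]
        · exact absurd hce (h2 c hc)
      rcases ha with ha | rfl <;> rcases hb with hb | rfl
      · rw [hφ'K i' a ha, hφ'K i' b hb] at he
        exact hE.inj i' a ha b hb he
      · rw [hφ'K i' a ha, hφ'f i'] at he
        exact hfv' a ha he
      · rw [hφ'K i' b hb, hφ'f i'] at he
        exact (hfv' b hb he.symm).symm
      · rfl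
  obtain ⟨σ', φ'', hE'⟩ := hEmb.of_hint hokj
  exact hprev j hj σ' φ'' hE'

/-- The certificate theorem: if all states below `n` pass the check and state `root` is empty,
every `H` with matching number at most `nu` has a cover of size at most `cb`. -/
theorem cover_of_certificate (hr : 0 < r) {nu cb : ℕ} (tbl : ℕ → List (List ℕ)) (n root : ℕ)
    (data : ℕ → List ℕ × List (ℕ × ℕ) × List (ℕ × List ℕ × List (List ℕ)))
    (hall : ∀ i, i < n → okEntry r nu cb tbl i (data i).1 (data i).2.1 (data i).2.2 = true)
    (hroot : root < n) (hempty : tbl root = [])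
    (H : Finset (Fin r → V)) (hH : MatchingNumberLE H nu) :
    ∃ C : Finset (Fin r × V), C.card ≤ cb ∧ IsCover H C := by
  by_contra hno
  push Not at hno
  have hB : Bad H nu cb := ⟨hH, hno⟩
  have key : ∀ i, i < n → Dead H (tbl i) := by
    intro i
    induction i using Nat.strong_induction_on with
    | _ i ih =>
      intro hi
      exact dead_step hr hB (hall i hi) (fun j hj => ih j hj (by omega))
  refine key root hroot 1 (fun _ _ => Classical.choice ?_) ?_
  · by_contra hV
    -- `V` is empty, so `H` has no edges and the empty set covers it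
    have hVe : IsEmpty V := not_nonempty_iff.mp hV
    apply hno ∅ (by simp)
    intro e he
    exact (hVe.false (e ⟨0, hr⟩)).elim
  · rw [hempty]
    exact ⟨fun e he => by simp at he, fun i a ha => by simp at ha⟩

end Vale.Agent.P045.Cert
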