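import Vale.Agent.P045.Konig

/-!
A kernel-checkable certificate format for cover bounds of `r`-partite hypergraphs, written for speed
in the kernel: recursion goes through the recursors directly, and tuples of labels are packed into
single numbers, base `64`.

A state is a list of edges. A state is dead for `H` when it has no label preserving copy in `H`. To
kill a state we name at most `cb` vertices: some edge of `H` avoids their image, and this edge, seen
through the labels of the state, is one of finitely many patterns (`gen`). Each pattern added to the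
state must contain a copy of an earlier dead state.

States can also carry a pending number `k`: then `H` is assumed to have `k` more edges, pairwise
different in two named parts and different from the edges of the state in those parts. This is
how König's theorem enters.
-/

namespace Vale.Agent.P045.C2

/-! ### Basic list functions through the recursors -/

/-- Choice on a Boolean, through the recursor. -/
noncomputable def bsel {α : Type} (c : Bool) (a b : α) : α :=
  Bool.rec (motive := fun _ => α) b a c

@[simp] lemma bsel_true {α : Type} (a b : α) : bsel true a b = a := rfl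
@[simp] lemma bsel_false {α : Type} (a b : α) : bsel false a b = b := rfl

/-- The entry of a list of labels. -/
noncomputable def lab (e : List ℕ) : ℕ → ℕ :=
  List.rec (motive := fun _ => ℕ → ℕ) (fun _ => 0)
    (fun x _ ih n => Nat.rec (motive := fun _ => ℕ) x (fun m _ => ih m) n) e

@[simp] lemma lab_nil (n : ℕ) : lab [] n = 0 := rfl
@[simp] lemma lab_cons_zero (x : ℕ) (xs : List ℕ) : lab (x :: xs) 0 = x := rfl
@[simp] lemma lab_cons_succ (x : ℕ) (xs : List ℕ) (n : ℕ) : lab (x :: xs) (n + 1) = lab xs n := rfl

/-- Change an entry of a list of labels. -/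
noncomputable def setLab (e : List ℕ) : ℕ → ℕ → List ℕ :=
  List.rec (motive := fun _ => ℕ → ℕ → List ℕ) (fun _ _ => [])
    (fun x xs ih n l => Nat.rec (motive := fun _ => List ℕ) (l :: xs) (fun m _ => x :: ih m l) n) e

@[simp] lemma setLab_nil (n l : ℕ) : setLab [] n l = [] := rfl
@[simp] lemma setLab_cons_zero (x : ℕ) (xs : List ℕ) (l : ℕ) : setLab (x :: xs) 0 l = l :: xs := rfl
@[simp] lemma setLab_cons_succ (x : ℕ) (xs : List ℕ) (n l : ℕ) :
    setLab (x :: xs) (n + 1) l = x :: setLab xs n l := rfl

lemma lab_setLab_self : ∀ (e : List ℕ) (p l : ℕ), p < e.length → lab (setLab e p l) p = l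
  | [], _, _, h => by simp at h
  | _ :: _, 0, _, _ => rfl
  | _ :: xs, n + 1, l, h => lab_setLab_self xs n l (by simpa using h)

lemma lab_setLab_ne : ∀ (e : List ℕ) (p q l : ℕ), q ≠ p → lab (setLab e p l) q = lab e q
  | [], _, _, _, _ => rfl
  | _ :: _, 0, 0, _, h => absurd rfl h
  | _ :: _, 0, _ + 1, _, _ => rfl
  | _ :: _, _ + 1, 0, _, _ => rfl
  | _ :: xs, p + 1, q + 1, l, h => lab_setLab_ne xs p q l (fun e => h (by omega))

lemma length_setLab : ∀ (e : List ℕ) (p l : ℕ), (setLab e p l).length = e.length
  | [], _, _ => rfl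
  | _ :: _, 0, _ => rfl
  | _ :: xs, n + 1, l => by simp [length_setLab xs n l]

lemma ext_lab : ∀ (e f : List ℕ), e.length = f.length →
    (∀ p, p < e.length → lab e p = lab f p) → e = f
  | [], [], _, _ => rfl
  | [], _ :: _, h, _ => by simp at h
  | _ :: _, [], h, _ => by simp at h
  | x :: xs, y :: ys, h, hl => by
    have h0 : x = y := hl 0 (by simp)
    have h1 : xs = ys := ext_lab xs ys (by simpa using h) fun p hp =>
      hl (p + 1) (by simpa using hp)
    rw [h0, h1]

lemma lab_mem : ∀ (e : List ℕ) (p : ℕ), p < e.length → lab e p ∈ e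
  | [], _, h => by simp at h
  | _ :: _, 0, _ => by simp
  | _ :: xs, n + 1, h => List.mem_cons_of_mem _ (lab_mem xs n (by simpa using h))

lemma lab_map_range (r : ℕ) (g : ℕ → ℕ) : ∀ p, p < r → lab ((List.range r).map g) p = g p := by
  have key : ∀ (n s p : ℕ), p < n →
      lab ((List.range' s n).map g) p = g (s + p) := by
    intro n
    induction n with
    | zero => intro s p h; omega
    | succ n ih =>
      intro s p h
      rw [List.range'_succ, List.map_cons]
      cases p with
      | zero => rfl
      | succ q =>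
        have := ih (s + 1) q (by omega)
        rw [lab_cons_succ, this]
        congr 1
        omega
  intro p hp
  rw [List.range_eq_range']
  simpa using key r 0 p hp

lemma beq_true {a b : ℕ} : Nat.beq a b = true ↔ a = b :=
  ⟨Nat.eq_of_beq_eq_true, fun h => h ▸ Nat.beq_refl a⟩

lemma blt_true {a b : ℕ} : Nat.blt a b = true ↔ a < b := by
  simp [Nat.blt]

/-- Remove the first occurrence of a number. -/
noncomputable def eraseN (l : List ℕ) (p : ℕ) : List ℕ :=
  List.rec (motive := fun _ => List ℕ) []
    (fun x xs ih => bsel (Nat.beq x p) xs (x :: ih)) l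

@[simp] lemma eraseN_nil (p : ℕ) : eraseN [] p = [] := rfl
lemma eraseN_cons (x : ℕ) (xs : List ℕ) (p : ℕ) :
    eraseN (x :: xs) p = bsel (Nat.beq x p) xs (x :: eraseN xs p) := rfl

lemma eraseN_sub : ∀ (l : List ℕ) (p q : ℕ), q ∈ eraseN l p → q ∈ l := by
  intro l p q
  induction l with
  | nil => simp
  | cons x xs ih =>
    rw [eraseN_cons]
    cases hb : Nat.beq x p with
    | true =>
      intro h
      exact List.mem_cons_of_mem _ h
    | false =>
      intro h
      rw [bsel_false, List.mem_cons] at h
      rcases h with h | h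
      · rw [h]; simp
      · exact List.mem_cons_of_mem _ (ih h)

lemma mem_eraseN : ∀ (l : List ℕ) (p q : ℕ), q ∈ l → q ≠ p → q ∈ eraseN l p := by
  intro l p q
  induction l with
  | nil => simp
  | cons x xs ih =>
    intro hq hne
    rw [eraseN_cons]
    cases hb : Nat.beq x p with
    | true =>
      have hxp := beq_true.mp hb
      rw [List.mem_cons] at hq
      rcases hq with hq | hq
      · exact absurd (hq.trans hxp) hne
      · exact hq
    | false =>
      rw [bsel_false, List.mem_cons]
      rw [List.mem_cons] at hq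
      rcases hq with hq | hq
      · exact Or.inl hq
      · exact Or.inr (ih hq hne)

lemma length_eraseN : ∀ (l : List ℕ) (p : ℕ), p ∈ l → (eraseN l p).length + 1 = l.length := by
  intro l p
  induction l with
  | nil => simp
  | cons x xs ih =>
    intro hp
    rw [eraseN_cons]
    cases hb : Nat.beq x p with
    | true => simp
    | false =>
      have hxp : x ≠ p := fun h => by
        rw [h, Nat.beq_refl] at hb
        cases hb
      have hp' : p ∈ xs := by
        rw [List.mem_cons] at hp
        rcases hp with hp | hp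
        · exact absurd hp.symm hxp
        · exact hp
      have := ih hp'
      simp [this]

/-! ### Packed tuples -/

/-- Digit `p`, base `64`. -/
def plab (e p : ℕ) : ℕ := Nat.land (Nat.shiftRight e (Nat.mul p 6)) 63

lemma plab_eq (e p : ℕ) : plab e p = e / 64 ^ p % 64 := by
  have h1 : Nat.land (Nat.shiftRight e (Nat.mul p 6)) 63 = (e >>> (p * 6)) &&& (2 ^ 6 - 1) := rfl
  rw [plab, h1, Nat.and_two_pow_sub_one_eq_mod, Nat.shiftRight_eq_div_pow, pow_mul']
  norm_num

lemma plab_lt (e p : ℕ) : plab e p < 64 := by
  rw [plab_eq]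
  exact Nat.mod_lt _ (by norm_num)

/-- Pack a list of labels into one number. -/
noncomputable def pack (l : List ℕ) : ℕ :=
  List.rec (motive := fun _ => ℕ) 0 (fun x _ ih => Nat.add x (Nat.mul ih 64)) l

@[simp] lemma pack_nil : pack [] = 0 := rfl
lemma pack_cons (x : ℕ) (xs : List ℕ) : pack (x :: xs) = x + pack xs * 64 := rfl

lemma plab_pack : ∀ (l : List ℕ), (∀ x ∈ l, x < 64) → ∀ p, p < l.length →
    plab (pack l) p = lab l p := by
  intro l
  induction l with
  | nil => intro _ p hp; simp at hp
  | cons x xs ih =>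
    intro hl p hp
    rw [plab_eq, pack_cons]
    cases p with
    | zero =>
      have := hl x (by simp)
      simp only [pow_zero, Nat.div_one, lab_cons_zero]
      omega
    | succ q =>
      have h1 : (x + pack xs * 64) / 64 ^ (q + 1) = pack xs / 64 ^ q := by
        rw [pow_succ', ← Nat.div_div_eq_div_mul]
        congr 1
        have := hl x (by simp)
        omega
      rw [h1, lab_cons_succ, ← plab_eq]
      exact ih (fun y hy => hl y (List.mem_cons_of_mem _ hy)) q (by simpa using hp)

/-- Do two packed tuples differ in all of the first `k` parts? -/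
noncomputable def disjP (k a b : ℕ) : Bool :=
  Nat.rec (motive := fun _ => Bool) true
    (fun n ih => bsel (Nat.beq (plab a n) (plab b n)) false ih) k

lemma disjP_spec {a b : ℕ} : ∀ k, disjP k a b = true → ∀ p, p < k → plab a p ≠ plab b p := by
  intro k
  induction k with
  | zero => intro _ p hp; omega
  | succ n ih =>
    intro h p hp
    have h' : bsel (Nat.beq (plab a n) (plab b n)) false (disjP n a b) = true := h
    cases hb : Nat.beq (plab a n) (plab b n) with
    | true =>
      rw [hb] at h'
      simp at h'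
    | false =>
      rw [hb, bsel_false] at h'
      by_cases hpn : p = n
      · subst hpn
        intro he
        rw [he, Nat.beq_refl] at hb
        cases hb
      · exact ih h' p (by omega)

/-- Filter a list of tuples by disjointness from `x`. -/
noncomputable def filtD (k x : ℕ) (l : List ℕ) : List ℕ :=
  List.rec (motive := fun _ => List ℕ) []
    (fun y _ ih => bsel (disjP k x y) (y :: ih) ih) l

@[simp] lemma filtD_nil (k x : ℕ) : filtD k x [] = [] := rfl
lemma filtD_cons (k x y : ℕ) (l : List ℕ) :
    filtD k x (y :: l) = bsel (disjP k x y) (y :: filtD k x l) (filtD k x l) := rfl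

lemma mem_filtD {k x y : ℕ} {l : List ℕ} (h : y ∈ filtD k x l) : y ∈ l ∧ disjP k x y = true := by
  induction l with
  | nil => simp at h
  | cons z zs ih =>
    rw [filtD_cons] at h
    cases hb : disjP k x z with
    | true =>
      rw [hb, bsel_true, List.mem_cons] at h
      rcases h with rfl | h
      · exact ⟨by simp, hb⟩
      · exact ⟨List.mem_cons_of_mem _ (ih h).1, (ih h).2⟩
    | false =>
      rw [hb, bsel_false] at h
      exact ⟨List.mem_cons_of_mem _ (ih h).1, (ih h).2⟩

/-- Search helper for `findM`: try each tuple in turn. -/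
noncomputable def findAux (k : ℕ) (rc : List ℕ → Option (List ℕ)) (l : List ℕ) : Option (List ℕ) :=
  List.rec (motive := fun _ => Option (List ℕ)) none
    (fun x xs ih => Option.rec (motive := fun _ => Option (List ℕ)) ih
      (fun M => some (x :: M)) (rc (filtD k x xs))) l

@[simp] lemma findAux_nil (k : ℕ) (rc : List ℕ → Option (List ℕ)) : findAux k rc [] = none := rfl
lemma findAux_cons (k : ℕ) (rc : List ℕ → Option (List ℕ)) (x : ℕ) (xs : List ℕ) :
    findAux k rc (x :: xs) = Option.rec (motive := fun _ => Option (List ℕ)) (findAux k rc xs)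
      (fun M => some (x :: M)) (rc (filtD k x xs)) := rfl

/-- Find `n` pairwise disjoint tuples in a list. -/
noncomputable def findM (k n : ℕ) : List ℕ → Option (List ℕ) :=
  Nat.rec (motive := fun _ => List ℕ → Option (List ℕ)) (fun _ => some [])
    (fun _ ih => findAux k ih) n

/-- The disjointness relation used for matchings of tuples. -/
def DisjRel (k a b : ℕ) : Prop := disjP k a b = true

lemma findAux_spec {k n : ℕ} {rc : List ℕ → Option (List ℕ)}
    (hrc : ∀ S M, rc S = some M → (∀ g ∈ M, g ∈ S) ∧ M.Pairwise (DisjRel k) ∧ M.length = n) :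
    ∀ (S M : List ℕ), findAux k rc S = some M →
      (∀ g ∈ M, g ∈ S) ∧ M.Pairwise (DisjRel k) ∧ M.length = n + 1 := by
  intro S
  induction S with
  | nil => intro M h; simp at h
  | cons x xs ih =>
    intro M h
    rw [findAux_cons] at h
    cases hr : rc (filtD k x xs) with
    | none =>
      rw [hr] at h
      obtain ⟨h1, h2, h3⟩ := ih M h
      exact ⟨fun g hg => List.mem_cons_of_mem _ (h1 g hg), h2, h3⟩
    | some M' =>
      rw [hr] at h
      have h' : some (x :: M') = some M := h
      simp only [Option.some.injEq] at h'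
      subst h'
      obtain ⟨h1, h2, h3⟩ := hrc _ _ hr
      refine ⟨?_, ?_, by simp [h3]⟩
      · intro g hg
        rw [List.mem_cons] at hg
        rcases hg with rfl | hg
        · simp
        · exact List.mem_cons_of_mem _ (mem_filtD (h1 g hg)).1
      · rw [List.pairwise_cons]
        exact ⟨fun g hg => (mem_filtD (h1 g hg)).2, h2⟩

lemma findM_spec (k : ℕ) : ∀ (n : ℕ) (S M : List ℕ), findM k n S = some M →
    (∀ g ∈ M, g ∈ S) ∧ M.Pairwise (DisjRel k) ∧ M.length = n := by
  intro n
  induction n with
  | zero =>
    intro S M h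
    have h' : some [] = some M := h
    simp only [Option.some.injEq] at h'
    subst h'
    simp
  | succ n ih =>
    intro S M h
    exact findAux_spec ih S M h

/-! ### Vertex sets as bit masks -/

/-- The bit of a vertex. -/
def vbit (p l : ℕ) : ℕ := Nat.add (Nat.mul p 64) l

/-- Is the vertex in the mask? -/
def isBan (b p l : ℕ) : Bool := Nat.beq (Nat.land (Nat.shiftRight b (vbit p l)) 1) 1

/-- Add a vertex to the mask. -/
def addBan (b p l : ℕ) : ℕ := Nat.lor b (Nat.shiftLeft 1 (vbit p l))

lemma isBan_eq (b p l : ℕ) : isBan b p l = Nat.testBit b (vbit p l) := by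
  have h1 : Nat.land (Nat.shiftRight b (vbit p l)) 1 = (b >>> (vbit p l)) &&& 1 := rfl
  rw [isBan, h1, Nat.testBit]
  have h2 : (b >>> vbit p l) &&& 1 = 1 &&& (b >>> vbit p l) := Nat.and_comm _ _
  rw [h2]
  have h3 : 1 &&& (b >>> vbit p l) = (b >>> vbit p l) % 2 := by
    rw [Nat.and_comm]
    exact Nat.and_one_is_mod _
  rw [h3]
  have h4 : (b >>> vbit p l) % 2 = 0 ∨ (b >>> vbit p l) % 2 = 1 := Nat.mod_two_eq_zero_or_one _
  rcases h4 with h4 | h4 <;> rw [h4] <;> rfl

lemma isBan_addBan (b p l q m : ℕ) :
    isBan (addBan b p l) q m = true ↔ isBan b q m = true ∨ vbit q m = vbit p l := by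
  rw [isBan_eq, isBan_eq]
  have h1 : addBan b p l = b ||| (1 <<< vbit p l) := rfl
  rw [h1, Nat.testBit_or, Bool.or_eq_true, Nat.one_shiftLeft, Nat.testBit_two_pow]
  simp only [decide_eq_true_eq]
  constructor
  · rintro (h | h)
    · exact Or.inl h
    · exact Or.inr h.symm
  · rintro (h | h)
    · exact Or.inl h
    · exact Or.inr h.symm

lemma vbit_inj {p q l m : ℕ} (hl : l < 64) (hm : m < 64) (h : vbit q m = vbit p l) :
    q = p ∧ m = l := by
  have h1 : vbit q m = q * 64 + m := rfl
  have h2 : vbit p l = p * 64 + l := rfl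
  rw [h1, h2] at h
  omega

/-- The mask of a list of vertices. -/
noncomputable def maskOf (C : List (ℕ × ℕ)) : ℕ :=
  List.rec (motive := fun _ => ℕ) 0 (fun v _ ih => addBan ih v.1 v.2) C

lemma isBan_maskOf {q m : ℕ} (hm : m < 64) : ∀ (C : List (ℕ × ℕ)), (∀ v ∈ C, v.2 < 64) →
    isBan (maskOf C) q m = true → (q, m) ∈ C := by
  intro C
  induction C with
  | nil =>
    intro _ h
    have h0 : maskOf [] = 0 := rfl
    rw [h0, isBan_eq] at h
    simp at h
  | cons v vs ih =>
    intro hC h
    have h0 : maskOf (v :: vs) = addBan (maskOf vs) v.1 v.2 := rfl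
    rw [h0, isBan_addBan] at h
    rcases h with h | h
    · exact List.mem_cons_of_mem _ (ih (fun w hw => hC w (List.mem_cons_of_mem _ hw)) h)
    · obtain ⟨h1, h2⟩ := vbit_inj (hC v (by simp)) hm h
      rw [h1, h2]
      simp

/-! ### The patterns -/

/-- The tuples not met by the vertex `(p, l)`. -/
noncomputable def filt (T : List ℕ) (p l : ℕ) : List ℕ :=
  List.rec (motive := fun _ => List ℕ) []
    (fun g _ ih => bsel (Nat.beq (plab g p) l) ih (g :: ih)) T

@[simp] lemma filt_nil (p l : ℕ) : filt [] p l = [] := rfl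
lemma filt_cons (g : ℕ) (T : List ℕ) (p l : ℕ) :
    filt (g :: T) p l = bsel (Nat.beq (plab g p) l) (filt T p l) (g :: filt T p l) := rfl

lemma mem_filt {T : List ℕ} {p l g : ℕ} (h : g ∈ filt T p l) : g ∈ T ∧ plab g p ≠ l := by
  induction T with
  | nil => simp at h
  | cons x xs ih =>
    rw [filt_cons] at h
    cases hb : Nat.beq (plab x p) l with
    | true =>
      rw [hb, bsel_true] at h
      exact ⟨List.mem_cons_of_mem _ (ih h).1, (ih h).2⟩
    | false =>
      rw [hb, bsel_false, List.mem_cons] at h
      rcases h with rfl | h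
      · refine ⟨by simp, fun he => ?_⟩
        rw [he, Nat.beq_refl] at hb
        cases hb
      · exact ⟨List.mem_cons_of_mem _ (ih h).1, (ih h).2⟩

/-- Add the vertices of the tuples of `M` in part `p` in front of a list. -/
noncomputable def candsAt (M : List ℕ) (p : ℕ) (tl : List (ℕ × ℕ)) : List (ℕ × ℕ) :=
  List.rec (motive := fun _ => List (ℕ × ℕ)) tl (fun g _ ih => (p, plab g p) :: ih) M

/-- The vertices of the tuples of `M` in the parts `ua`. -/
noncomputable def cands (M ua : List ℕ) : List (ℕ × ℕ) :=
  List.rec (motive := fun _ => List (ℕ × ℕ)) [] (fun p _ ih => candsAt M p ih) ua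

lemma mem_candsAt {M : List ℕ} {p : ℕ} {tl : List (ℕ × ℕ)} {v : ℕ × ℕ} :
    v ∈ candsAt M p tl ↔ (∃ g ∈ M, v = (p, plab g p)) ∨ v ∈ tl := by
  induction M with
  | nil =>
    have h0 : candsAt [] p tl = tl := rfl
    simp [h0]
  | cons g gs ih =>
    have h0 : candsAt (g :: gs) p tl = (p, plab g p) :: candsAt gs p tl := rfl
    rw [h0, List.mem_cons, ih]
    constructor
    · rintro (h | ⟨x, hx, h⟩ | h)
      · exact Or.inl ⟨g, by simp, h⟩
      · exact Or.inl ⟨x, List.mem_cons_of_mem _ hx, h⟩
      · exact Or.inr h
    · rintro (⟨x, hx, h⟩ | h)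
      · rw [List.mem_cons] at hx
        rcases hx with rfl | hx
        · exact Or.inl h
        · exact Or.inr (Or.inl ⟨x, hx, h⟩)
      · exact Or.inr (Or.inr h)

lemma mem_cands {M ua : List ℕ} {v : ℕ × ℕ} :
    v ∈ cands M ua ↔ ∃ p ∈ ua, ∃ g ∈ M, v = (p, plab g p) := by
  induction ua with
  | nil =>
    have h0 : cands M [] = [] := rfl
    simp [h0]
  | cons p ps ih =>
    have h0 : cands M (p :: ps) = candsAt M p (cands M ps) := rfl
    rw [h0, mem_candsAt, ih]
    constructor
    · rintro (⟨g, hg, h⟩ | ⟨q, hq, g, hg, h⟩)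
      · exact ⟨p, by simp, g, hg, h⟩
      · exact ⟨q, List.mem_cons_of_mem _ hq, g, hg, h⟩
    · rintro ⟨q, hq, g, hg, h⟩
      rw [List.mem_cons] at hq
      rcases hq with rfl | hq
      · exact Or.inl ⟨g, hg, h⟩
      · exact Or.inr ⟨q, hq, g, hg, h⟩

/-- Append, through the recursor. -/
noncomputable def app (a b : List (List ℕ)) : List (List ℕ) :=
  List.rec (motive := fun _ => List (List ℕ)) b (fun x _ ih => x :: ih) a

lemma mem_app {a b : List (List ℕ)} {x : List ℕ} : x ∈ app a b ↔ x ∈ a ∨ x ∈ b := by
  induction a with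
  | nil =>
    have h0 : app [] b = b := rfl
    simp [h0]
  | cons y ys ih =>
    have h0 : app (y :: ys) b = y :: app ys b := rfl
    rw [h0, List.mem_cons, ih, List.mem_cons, or_assoc]

/-- Branch on the vertices of a list, in order. A later branch bans the earlier vertices. -/
noncomputable def branch (rc : ℕ → List ℕ → List ℕ → List ℕ → List (List ℕ))
    (cur ua T : List ℕ) (vs : List (ℕ × ℕ)) : ℕ → List (List ℕ) :=
  List.rec (motive := fun _ => ℕ → List (List ℕ)) (fun _ => [])
    (fun v _ ih bans =>
      bsel (isBan bans v.1 v.2) (ih bans)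
        (app (rc bans (setLab cur v.1 v.2) (eraseN ua v.1) (filt T v.1 v.2))
          (ih (addBan bans v.1 v.2)))) vs

lemma branch_nil (rc : ℕ → List ℕ → List ℕ → List ℕ → List (List ℕ)) (cur ua T : List ℕ) (b : ℕ) :
    branch rc cur ua T [] b = [] := rfl

lemma branch_cons (rc : ℕ → List ℕ → List ℕ → List ℕ → List (List ℕ)) (cur ua T : List ℕ)
    (v : ℕ × ℕ) (vs : List (ℕ × ℕ)) (b : ℕ) :
    branch rc cur ua T (v :: vs) b = bsel (isBan b v.1 v.2) (branch rc cur ua T vs b)
      (app (rc b (setLab cur v.1 v.2) (eraseN ua v.1) (filt T v.1 v.2))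
        (branch rc cur ua T vs (addBan b v.1 v.2))) := rfl

/-- Run over the labels of one part. -/
noncomputable def labelsLoop (rc : ℕ → List ℕ → List ℕ → List ℕ → List (List ℕ))
    (bans : ℕ) (cur : List ℕ) (p : ℕ) (ua T : List ℕ) (ls : List ℕ) : List (List ℕ) :=
  List.rec (motive := fun _ => List (List ℕ)) []
    (fun l _ ih => bsel (isBan bans p l) ih
      (app (rc bans (setLab cur p l) ua (filt T p l)) ih)) ls

lemma labelsLoop_cons (rc : ℕ → List ℕ → List ℕ → List ℕ → List (List ℕ))
    (bans : ℕ) (cur : List ℕ) (p : ℕ) (ua T : List ℕ) (l : ℕ) (ls : List ℕ) :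
    labelsLoop rc bans cur p ua T (l :: ls) = bsel (isBan bans p l) (labelsLoop rc bans cur p ua T ls)
      (app (rc bans (setLab cur p l) ua (filt T p l)) (labelsLoop rc bans cur p ua T ls)) := rfl

/-- Membership of a label in a list. -/
noncomputable def memN (x : ℕ) (l : List ℕ) : Bool :=
  List.rec (motive := fun _ => Bool) false (fun y _ ih => bsel (Nat.beq x y) true ih) l

lemma memN_nil (x : ℕ) : memN x [] = false := rfl
lemma memN_cons (x y : ℕ) (l : List ℕ) : memN x (y :: l) = bsel (Nat.beq x y) true (memN x l) := rfl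

lemma memN_mem {x : ℕ} {l : List ℕ} (h : memN x l = true) : x ∈ l := by
  induction l with
  | nil => rw [memN_nil] at h; cases h
  | cons y ys ih =>
    rw [memN_cons] at h
    cases hb : Nat.beq x y with
    | true => rw [beq_true.mp hb]; simp
    | false =>
      rw [hb, bsel_false] at h
      exact List.mem_cons_of_mem _ (ih h)

lemma mem_memN {x : ℕ} {l : List ℕ} (h : x ∈ l) : memN x l = true := by
  induction l with
  | nil => simp at h
  | cons y ys ih =>
    rw [memN_cons]
    rw [List.mem_cons] at h
    rcases h with rfl | h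
    · rw [Nat.beq_refl]; rfl
    · rw [ih h]
      cases Nat.beq x y <;> rfl

/-- The different labels of a state in a part, followed by the label `f`. -/
noncomputable def labsOf (K : List ℕ) (p f : ℕ) : List ℕ :=
  List.rec (motive := fun _ => List ℕ) [f]
    (fun e _ ih => bsel (memN (plab e p) ih) ih (plab e p :: ih)) K

lemma labsOf_nil (p f : ℕ) : labsOf [] p f = [f] := rfl
lemma labsOf_cons (e : ℕ) (K : List ℕ) (p f : ℕ) : labsOf (e :: K) p f =
    bsel (memN (plab e p) (labsOf K p f)) (labsOf K p f) (plab e p :: labsOf K p f) := rfl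

lemma fresh_mem_labsOf (K : List ℕ) (p f : ℕ) : f ∈ labsOf K p f := by
  induction K with
  | nil => simp [labsOf_nil]
  | cons e es ih =>
    rw [labsOf_cons]
    cases memN (plab e p) (labsOf es p f) with
    | true => exact ih
    | false => exact List.mem_cons_of_mem _ ih

lemma lab_mem_labsOf {K : List ℕ} {p f e : ℕ} (he : e ∈ K) : plab e p ∈ labsOf K p f := by
  induction K with
  | nil => simp at he
  | cons x xs ih =>
    rw [labsOf_cons]
    rw [List.mem_cons] at he
    cases hm : memN (plab x p) (labsOf xs p f) with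
    | true =>
      rw [bsel_true]
      rcases he with rfl | he
      · exact memN_mem hm
      · exact ih he
    | false =>
      rw [bsel_false]
      rcases he with rfl | he
      · simp
      · exact List.mem_cons_of_mem _ (ih he)

/-- All patterns compatible with a partial assignment `cur` (with unassigned parts `ua`), the
banned vertices `bans` and the requirement of meeting every `nu`-matching of `T`. -/
noncomputable def gen (k nu nl : ℕ) (K : List ℕ) (fuel : ℕ) :
    ℕ → List ℕ → List ℕ → List ℕ → List (List ℕ) :=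
  Nat.rec (motive := fun _ => ℕ → List ℕ → List ℕ → List ℕ → List (List ℕ))
    (fun _ cur _ _ => [cur])
    (fun _ rc bans cur ua T =>
      Option.rec (motive := fun _ => List (List ℕ))
        (List.rec (motive := fun _ => List (List ℕ)) [cur]
          (fun p ps _ => labelsLoop rc bans cur p ps T (labsOf K p (plab nl p))) ua)
        (fun M => branch rc cur ua T (cands M ua) bans)
        (findM k nu T))
    fuel

lemma gen_zero (k nu nl : ℕ) (K : List ℕ) (b : ℕ) (cur ua T : List ℕ) :
    gen k nu nl K 0 b cur ua T = [cur] := rfl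

lemma gen_succ_some (k nu nl : ℕ) (K : List ℕ) (fuel b : ℕ) (cur ua T M : List ℕ)
    (h : findM k nu T = some M) :
    gen k nu nl K (fuel + 1) b cur ua T =
      branch (gen k nu nl K fuel) cur ua T (cands M ua) b := by
  show Option.rec (motive := fun _ => List (List ℕ)) _ _ (findM k nu T) = _
  rw [h]
  rfl

lemma gen_succ_none_nil (k nu nl : ℕ) (K : List ℕ) (fuel b : ℕ) (cur T : List ℕ)
    (h : findM k nu T = none) :
    gen k nu nl K (fuel + 1) b cur [] T = [cur] := by
  show Option.rec (motive := fun _ => List (List ℕ)) _ _ (findM k nu T) = _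
  rw [h]

lemma gen_succ_none_cons (k nu nl : ℕ) (K : List ℕ) (fuel b : ℕ) (cur : List ℕ) (p : ℕ)
    (ps T : List ℕ) (h : findM k nu T = none) :
    gen k nu nl K (fuel + 1) b cur (p :: ps) T =
      labelsLoop (gen k nu nl K fuel) b cur p ps T (labsOf K p (plab nl p)) := by
  show Option.rec (motive := fun _ => List (List ℕ)) _ _ (findM k nu T) = _
  rw [h]
  rfl

/-- The conditions on a pattern that `gen` must list. -/
structure Valid (r nu nl : ℕ) (K : List ℕ) (bans : ℕ) (cur ua T : List ℕ) (f : List ℕ) : Prop where
  lenf : f.length = r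
  lenc : cur.length = r
  uar : ∀ p ∈ ua, p < r
  small : ∀ p, p < r → lab f p < 64
  fixed : ∀ p, p < r → p ∉ ua → lab f p = lab cur p
  range : ∀ p, p < r → lab f p ∈ labsOf K p (plab nl p)
  avoid : ∀ p, p < r → isBan bans p (lab f p) = false
  hit : ∀ M : List ℕ, (∀ g ∈ M, g ∈ T) → M.Pairwise (DisjRel r) → M.length = nu →
    ∃ g ∈ M, ∃ p ∈ ua, lab f p = plab g p

lemma Valid.step {r nu nl : ℕ} {K : List ℕ} {bans : ℕ} {cur ua ua' T f : List ℕ}
    (hV : Valid r nu nl K bans cur ua T f) {p : ℕ} (hp : p < r)
    (hua' : ∀ q, q ∈ ua → q ≠ p → q ∈ ua') (hua'' : ∀ q, q ∈ ua' → q ∈ ua) :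
    Valid r nu nl K bans (setLab cur p (lab f p)) ua' (filt T p (lab f p)) f := by
  refine ⟨hV.lenf, by rw [length_setLab]; exact hV.lenc, fun q hq => hV.uar q (hua'' q hq),
    hV.small, ?_, hV.range, hV.avoid, ?_⟩
  · intro q hq hq'
    by_cases hqp : q = p
    · subst hqp
      rw [lab_setLab_self _ _ _ (by rw [hV.lenc]; exact hq)]
    · rw [lab_setLab_ne _ _ _ _ hqp]
      apply hV.fixed q hq
      intro hq2
      exact hq' (hua' q hq2 hqp)
  · intro M hM hpw hlen
    have hM' : ∀ g ∈ M, g ∈ T ∧ plab g p ≠ lab f p := fun g hg => mem_filt (hM g hg)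
    obtain ⟨g, hg, q, hq, hqe⟩ := hV.hit M (fun g hg => (hM' g hg).1) hpw hlen
    refine ⟨g, hg, q, ?_, hqe⟩
    apply hua' q hq
    rintro rfl
    exact (hM' g hg).2 hqe.symm

lemma branch_complete {r nu nl : ℕ} {K : List ℕ} {f : List ℕ} {fuel : ℕ}
    {rc : ℕ → List ℕ → List ℕ → List ℕ → List (List ℕ)}
    (hrc : ∀ bans cur ua T, ua.length ≤ fuel → Valid r nu nl K bans cur ua T f →
      f ∈ rc bans cur ua T)
    {cur ua T : List ℕ} (hua : ua.length ≤ fuel + 1) :
    ∀ (vs : List (ℕ × ℕ)) (bans : ℕ), (∀ v ∈ vs, v.1 ∈ ua) → (∀ v ∈ vs, v.2 < 64) →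
      (∃ v ∈ vs, lab f v.1 = v.2) →
      Valid r nu nl K bans cur ua T f → f ∈ branch rc cur ua T vs bans := by
  intro vs
  induction vs with
  | nil =>
    intro bans _ _ h _
    obtain ⟨v, hv, _⟩ := h
    simp at hv
  | cons v vs ih =>
    intro bans hvs hvs2 hex hV
    obtain ⟨q, l⟩ := v
    rw [branch_cons]
    have hqu : q ∈ ua := hvs (q, l) (by simp)
    have hqr : q < r := hV.uar q hqu
    have hl64 : l < 64 := hvs2 (q, l) (by simp)
    by_cases hfq : lab f q = l
    · subst hfq
      have hnb : isBan bans q (lab f q) = false := hV.avoid q hqr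
      show f ∈ bsel (isBan bans q (lab f q)) _ _
      rw [hnb, bsel_false, mem_app]
      left
      apply hrc
      · have := length_eraseN ua q hqu
        show (eraseN ua q).length ≤ fuel
        omega
      · exact hV.step hqr (fun p hp hpq => mem_eraseN ua q p hp hpq)
          (fun p hp => eraseN_sub ua q p hp)
    · have hrest : f ∈ branch rc cur ua T vs bans ∧ f ∈ branch rc cur ua T vs (addBan bans q l) := by
        have hex' : ∃ v ∈ vs, lab f v.1 = v.2 := by
          obtain ⟨v, hv, hv'⟩ := hex
          rw [List.mem_cons] at hv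
          rcases hv with rfl | hv
          · exact absurd hv' hfq
          · exact ⟨v, hv, hv'⟩
        have hvs' : ∀ v ∈ vs, v.1 ∈ ua := fun v hv => hvs v (List.mem_cons_of_mem _ hv)
        have hvs2' : ∀ v ∈ vs, v.2 < 64 := fun v hv => hvs2 v (List.mem_cons_of_mem _ hv)
        refine ⟨ih bans hvs' hvs2' hex' hV, ih _ hvs' hvs2' hex' ?_⟩
        refine ⟨hV.lenf, hV.lenc, hV.uar, hV.small, hV.fixed, hV.range, ?_, hV.hit⟩
        intro p hp
        rw [Bool.eq_false_iff, Ne, isBan_addBan]
        rintro (hb | hb)
        · rw [hV.avoid p hp] at hb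
          cases hb
        · obtain ⟨rfl, h2⟩ := vbit_inj hl64 (hV.small p hp) hb
          exact hfq h2
      show f ∈ bsel (isBan bans q l) _ _
      cases isBan bans q l with
      | true => rw [bsel_true]; exact hrest.1
      | false =>
        rw [bsel_false, mem_app]
        exact Or.inr hrest.2

lemma labelsLoop_complete {f : List ℕ}
    {rc : ℕ → List ℕ → List ℕ → List ℕ → List (List ℕ)}
    {bans : ℕ} {cur : List ℕ} {p : ℕ} {ua T : List ℕ} :
    ∀ (ls : List ℕ), lab f p ∈ ls → isBan bans p (lab f p) = false →
      f ∈ rc bans (setLab cur p (lab f p)) ua (filt T p (lab f p)) →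
      f ∈ labelsLoop rc bans cur p ua T ls := by
  intro ls
  induction ls with
  | nil => intro h; simp at h
  | cons l ls ih =>
    intro hl hb hf
    rw [labelsLoop_cons]
    rw [List.mem_cons] at hl
    by_cases hfl : lab f p = l
    · subst hfl
      rw [hb, bsel_false, mem_app]
      exact Or.inl hf
    · have hrest : f ∈ labelsLoop rc bans cur p ua T ls := by
        apply ih _ hb hf
        rcases hl with hl | hl
        · exact absurd hl hfl
        · exact hl
      cases isBan bans p l with
      | true => rw [bsel_true]; exact hrest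
      | false =>
        rw [bsel_false, mem_app]
        exact Or.inr hrest

/-- Completeness of `gen`. -/
theorem gen_complete {r nu nl : ℕ} {K f : List ℕ} :
    ∀ (fuel bans : ℕ) (cur ua T : List ℕ),
      ua.length ≤ fuel → Valid r nu nl K bans cur ua T f → f ∈ gen r nu nl K fuel bans cur ua T := by
  intro fuel
  induction fuel with
  | zero =>
    intro bans cur ua T hua hV
    have : ua = [] := List.length_eq_zero_iff.mp (by omega)
    subst this
    rw [gen_zero, List.mem_singleton]
    exact ext_lab _ _ (by rw [hV.lenf, hV.lenc]) fun p hp =>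
      hV.fixed p (by rw [hV.lenf] at hp; exact hp) (by simp)
  | succ fuel ih =>
    intro bans cur ua T hua hV
    cases hfm : findM r nu T with
    | some M =>
      rw [gen_succ_some _ _ _ _ _ _ _ _ _ _ hfm]
      obtain ⟨h1, h2, h3⟩ := findM_spec _ _ _ _ hfm
      obtain ⟨g, hg, q, hq, hqe⟩ := hV.hit M h1 h2 h3
      refine branch_complete (fun bans cur ua T h1 h2 => ih bans cur ua T h1 h2) hua _ bans
        ?_ ?_ ?_ hV
      · intro v hv
        obtain ⟨p, hp, _, _, rfl⟩ := mem_cands.mp hv
        exact hp
      · intro v hv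
        obtain ⟨p, _, x, _, rfl⟩ := mem_cands.mp hv
        exact plab_lt x p
      · exact ⟨(q, plab g q), mem_cands.mpr ⟨q, hq, g, hg, rfl⟩, hqe⟩
    | none =>
      cases ua with
      | nil =>
        rw [gen_succ_none_nil _ _ _ _ _ _ _ _ hfm, List.mem_singleton]
        exact ext_lab _ _ (by rw [hV.lenf, hV.lenc]) fun p hp =>
          hV.fixed p (by rw [hV.lenf] at hp; exact hp) (by simp)
      | cons p ps =>
        rw [gen_succ_none_cons _ _ _ _ _ _ _ _ _ _ hfm]
        have hpr : p < r := hV.uar p (by simp)
        apply labelsLoop_complete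
        · exact hV.range p hpr
        · exact hV.avoid p hpr
        · apply ih
          · simpa using hua
          · refine hV.step hpr ?_ (fun q hq => List.mem_cons_of_mem _ hq)
            intro q hq hqp
            exact (List.mem_cons.mp hq).resolve_left hqp

/-! ### The patterns when the matching bound is one -/

/-- Branch on the vertices of the tuple `g` in the parts `us`. -/
noncomputable def branch1 (rc : ℕ → List ℕ → List ℕ → List ℕ → List (List ℕ)) (g : ℕ)
    (cur ua T us : List ℕ) : ℕ → List (List ℕ) :=
  List.rec (motive := fun _ => ℕ → List (List ℕ)) (fun _ => [])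
    (fun p _ ih bans => bsel (isBan bans p (plab g p)) (ih bans)
      (app (rc bans (setLab cur p (plab g p)) (eraseN ua p) (filt T p (plab g p)))
        (ih (addBan bans p (plab g p))))) us

lemma branch1_cons (rc : ℕ → List ℕ → List ℕ → List ℕ → List (List ℕ)) (g : ℕ)
    (cur ua T : List ℕ) (p : ℕ) (us : List ℕ) (b : ℕ) :
    branch1 rc g cur ua T (p :: us) b = bsel (isBan b p (plab g p)) (branch1 rc g cur ua T us b)
      (app (rc b (setLab cur p (plab g p)) (eraseN ua p) (filt T p (plab g p)))
        (branch1 rc g cur ua T us (addBan b p (plab g p)))) := rfl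

/-- All patterns for the matching bound one. -/
noncomputable def gen1 (nl : ℕ) (K : List ℕ) (fuel : ℕ) :
    ℕ → List ℕ → List ℕ → List ℕ → List (List ℕ) :=
  Nat.rec (motive := fun _ => ℕ → List ℕ → List ℕ → List ℕ → List (List ℕ))
    (fun _ cur _ _ => [cur])
    (fun _ rc bans cur ua T =>
      List.rec (motive := fun _ => List (List ℕ))
        (List.rec (motive := fun _ => List (List ℕ)) [cur]
          (fun p ps _ => labelsLoop rc bans cur p ps [] (labsOf K p (plab nl p))) ua)
        (fun g rest _ => branch1 rc g cur ua rest ua bans) T)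
    fuel

lemma gen1_zero (nl : ℕ) (K : List ℕ) (b : ℕ) (cur ua T : List ℕ) :
    gen1 nl K 0 b cur ua T = [cur] := rfl

lemma gen1_succ_cons (nl : ℕ) (K : List ℕ) (fuel b : ℕ) (cur ua : List ℕ) (g : ℕ) (rest : List ℕ) :
    gen1 nl K (fuel + 1) b cur ua (g :: rest) = branch1 (gen1 nl K fuel) g cur ua rest ua b := rfl

lemma gen1_succ_nil_nil (nl : ℕ) (K : List ℕ) (fuel b : ℕ) (cur : List ℕ) :
    gen1 nl K (fuel + 1) b cur [] [] = [cur] := rfl

lemma gen1_succ_nil_cons (nl : ℕ) (K : List ℕ) (fuel b : ℕ) (cur : List ℕ) (p : ℕ) (ps : List ℕ) :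
    gen1 nl K (fuel + 1) b cur (p :: ps) [] =
      labelsLoop (gen1 nl K fuel) b cur p ps [] (labsOf K p (plab nl p)) := rfl

lemma Valid.mono {r nu nl : ℕ} {K : List ℕ} {bans : ℕ} {cur ua T T' f : List ℕ}
    (hV : Valid r nu nl K bans cur ua T f) (h : ∀ g ∈ T', g ∈ T) :
    Valid r nu nl K bans cur ua T' f :=
  ⟨hV.lenf, hV.lenc, hV.uar, hV.small, hV.fixed, hV.range, hV.avoid,
    fun M hM hpw hlen => hV.hit M (fun g hg => h g (hM g hg)) hpw hlen⟩

lemma branch1_complete {r nl : ℕ} {K : List ℕ} {f : List ℕ} {fuel : ℕ} {g : ℕ}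
    {rc : ℕ → List ℕ → List ℕ → List ℕ → List (List ℕ)}
    (hrc : ∀ bans cur ua T, ua.length ≤ fuel → Valid r 1 nl K bans cur ua T f →
      f ∈ rc bans cur ua T)
    {cur ua T : List ℕ} (hua : ua.length ≤ fuel + 1) :
    ∀ (us : List ℕ) (bans : ℕ), (∀ p ∈ us, p ∈ ua) → (∃ p ∈ us, lab f p = plab g p) →
      Valid r 1 nl K bans cur ua T f → f ∈ branch1 rc g cur ua T us bans := by
  intro us
  induction us with
  | nil =>
    intro bans _ h _
    obtain ⟨p, hp, _⟩ := h
    simp at hp
  | cons q qs ih =>
    intro bans hus hex hV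
    rw [branch1_cons]
    have hqu : q ∈ ua := hus q (by simp)
    have hqr : q < r := hV.uar q hqu
    by_cases hfq : lab f q = plab g q
    · have hnb : isBan bans q (plab g q) = false := by
        rw [← hfq]; exact hV.avoid q hqr
      rw [hnb, bsel_false, mem_app]
      left
      rw [← hfq]
      apply hrc
      · have := length_eraseN ua q hqu
        show (eraseN ua q).length ≤ fuel
        omega
      · exact hV.step hqr (fun p hp hpq => mem_eraseN ua q p hp hpq)
          (fun p hp => eraseN_sub ua q p hp)
    · have hex' : ∃ p ∈ qs, lab f p = plab g p := by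
        obtain ⟨p, hp, hp'⟩ := hex
        rw [List.mem_cons] at hp
        rcases hp with rfl | hp
        · exact absurd hp' hfq
        · exact ⟨p, hp, hp'⟩
      have hus' : ∀ p ∈ qs, p ∈ ua := fun p hp => hus p (List.mem_cons_of_mem _ hp)
      have hrest : f ∈ branch1 rc g cur ua T qs bans ∧
          f ∈ branch1 rc g cur ua T qs (addBan bans q (plab g q)) := by
        refine ⟨ih bans hus' hex' hV, ih _ hus' hex' ?_⟩
        refine ⟨hV.lenf, hV.lenc, hV.uar, hV.small, hV.fixed, hV.range, ?_, hV.hit⟩
        intro p hp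
        rw [Bool.eq_false_iff, Ne, isBan_addBan]
        rintro (hb | hb)
        · rw [hV.avoid p hp] at hb
          cases hb
        · obtain ⟨rfl, h2⟩ := vbit_inj (plab_lt g q) (hV.small p hp) hb
          exact hfq h2
      cases isBan bans q (plab g q) with
      | true => rw [bsel_true]; exact hrest.1
      | false =>
        rw [bsel_false, mem_app]
        exact Or.inr hrest.2

/-- Completeness of `gen1`. -/
theorem gen1_complete {r nl : ℕ} {K f : List ℕ} :
    ∀ (fuel bans : ℕ) (cur ua T : List ℕ),
      ua.length ≤ fuel → Valid r 1 nl K bans cur ua T f → f ∈ gen1 nl K fuel bans cur ua T := by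
  intro fuel
  induction fuel with
  | zero =>
    intro bans cur ua T hua hV
    have : ua = [] := List.length_eq_zero_iff.mp (by omega)
    subst this
    rw [gen1_zero, List.mem_singleton]
    exact ext_lab _ _ (by rw [hV.lenf, hV.lenc]) fun p hp =>
      hV.fixed p (by rw [hV.lenf] at hp; exact hp) (by simp)
  | succ fuel ih =>
    intro bans cur ua T hua hV
    cases T with
    | cons g rest =>
      rw [gen1_succ_cons]
      obtain ⟨g', hg', q, hq, hqe⟩ := hV.hit [g] (by simp) (by simp) rfl
      have hg'' : g' = g := by simpa using hg'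
      subst hg''
      exact branch1_complete (fun bans cur ua T h1 h2 => ih bans cur ua T h1 h2) hua ua bans
        (fun p hp => hp) ⟨q, hq, hqe⟩
        (hV.mono fun x hx => List.mem_cons_of_mem _ hx)
    | nil =>
      cases ua with
      | nil =>
        rw [gen1_succ_nil_nil, List.mem_singleton]
        exact ext_lab _ _ (by rw [hV.lenf, hV.lenc]) fun p hp =>
          hV.fixed p (by rw [hV.lenf] at hp; exact hp) (by simp)
      | cons p ps =>
        rw [gen1_succ_nil_cons]
        have hpr : p < r := hV.uar p (by simp)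
        apply labelsLoop_complete
        · exact hV.range p hpr
        · exact hV.avoid p hpr
        · apply ih
          · simpa using hua
          · refine (hV.step hpr ?_ (fun q hq => List.mem_cons_of_mem _ hq))
            intro q hq hqp
            exact (List.mem_cons.mp hq).resolve_left hqp

/-- The patterns, through the faster function when the matching bound is one. -/
noncomputable def genX (r nu nl : ℕ) (K : List ℕ) (bans : ℕ) (cur0 ps : List ℕ) : List (List ℕ) :=
  bsel (Nat.beq nu 1) (gen1 nl K (Nat.succ r) bans cur0 ps K)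
    (gen r nu nl K (Nat.succ r) bans cur0 ps K)

lemma genX_complete {r nu nl : ℕ} {K f : List ℕ} {bans : ℕ} {cur0 ps : List ℕ}
    (hua : ps.length ≤ r + 1) (hV : Valid r nu nl K bans cur0 ps K f) :
    f ∈ genX r nu nl K bans cur0 ps := by
  by_cases h : nu = 1
  · subst h
    exact gen1_complete (r + 1) bans cur0 ps K hua hV
  · have h1 : Nat.beq nu 1 = false := by
      rw [Bool.eq_false_iff]
      intro h2
      exact h (beq_true.mp h2)
    have h2 : genX r nu nl K bans cur0 ps = gen r nu nl K (r + 1) bans cur0 ps K := by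
      show bsel (Nat.beq nu 1) _ _ = _
      rw [h1]
      rfl
    rw [h2]
    exact gen_complete (r + 1) bans cur0 ps K hua hV

/-! ### Copies of states in `H` -/

variable {r : ℕ} {V : Type*}

/-- A copy of the state `K` in `H`: the part `σ i` of the state goes to part `i` of `H`, with labels
sent to vertices by `φ i`, injectively on the labels that occur. -/
structure Emb (H : Finset (Fin r → V)) (σ : Equiv.Perm (Fin r)) (φ : Fin r → ℕ → V)
    (K : List ℕ) : Prop where
  mem : ∀ e ∈ K, (fun i => φ i (plab e (σ i))) ∈ H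
  inj : ∀ i, ∀ a ∈ K, ∀ b ∈ K, φ i (plab a (σ i)) = φ i (plab b (σ i)) → plab a (σ i) = plab b (σ i)

lemma disjRel_spec {a b : ℕ} (h : DisjRel r a b) (i : Fin r) : plab a i ≠ plab b i :=
  disjP_spec r h i i.2

open Classical in
/-- An edge of `H` seen through a copy of `K` is one of the patterns listed by `gen`. -/
theorem exists_pattern {H : Finset (Fin r → V)} {nu : ℕ} (hnu : MatchingNumberLE H nu)
    {σ : Equiv.Perm (Fin r)} {φ : Fin r → ℕ → V} {K : List ℕ} (hE : Emb H σ φ K)
    {x : Fin r → V} (hx : x ∈ H) {nl bans : ℕ} {ps cur0 : List ℕ} (hps : ps = List.range r)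
    (hcur : cur0.length = r) (hfresh : ∀ p, p < r → isBan bans p (plab nl p) = false)
    (hav : ∀ i : Fin r, ∀ a ∈ K, isBan bans (σ i) (plab a (σ i)) = true →
      φ i (plab a (σ i)) ≠ x i) :
    ∃ f : List ℕ, f ∈ genX r nu nl K bans cur0 ps ∧ f.length = r ∧
      (∀ p, p < r → lab f p < 64) ∧
      ∀ i : Fin r, (∃ a ∈ K, plab a (σ i) = lab f (σ i) ∧ φ i (lab f (σ i)) = x i) ∨
        (lab f (σ i) = plab nl (σ i) ∧ ∀ a ∈ K, φ i (plab a (σ i)) ≠ x i) := by
  let P : ℕ → ℕ → Prop := fun p a => a ∈ K ∧ ∃ hp : p < r,
    φ (σ.symm ⟨p, hp⟩) (plab a p) = x (σ.symm ⟨p, hp⟩)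
  let fv : ℕ → ℕ := fun p => if h : ∃ a, P p a then plab h.choose p else plab nl p
  let f : List ℕ := (List.range r).map fv
  have hlab : ∀ p, p < r → lab f p = fv p := fun p hp => lab_map_range r fv p hp
  have hflen : f.length = r := by simp [f]
  have hfv : ∀ p (hp : p < r), (∃ a ∈ K, plab a p = fv p ∧
        φ (σ.symm ⟨p, hp⟩) (fv p) = x (σ.symm ⟨p, hp⟩)) ∨
      (fv p = plab nl p ∧ ∀ a ∈ K, φ (σ.symm ⟨p, hp⟩) (plab a p) ≠ x (σ.symm ⟨p, hp⟩)) := by
    intro p hp
    by_cases h : ∃ a, P p a
    · left
      have h1 : fv p = plab h.choose p := dif_pos h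
      obtain ⟨ha, _, hφ⟩ := h.choose_spec
      exact ⟨h.choose, ha, h1.symm, by rw [h1]; exact hφ⟩
    · right
      refine ⟨dif_neg h, ?_⟩
      intro a ha he
      exact h ⟨a, ha, hp, he⟩
  have hfvσ : ∀ i' : Fin r, (∃ a ∈ K, plab a (σ i') = fv (σ i') ∧ φ i' (fv (σ i')) = x i') ∨
      (fv (σ i') = plab nl (σ i') ∧ ∀ a ∈ K, φ i' (plab a (σ i')) ≠ x i') := by
    intro i'
    have := hfv (σ i') (σ i').2
    simpa only [Fin.eta, Equiv.symm_apply_apply] using this
  have hsmall : ∀ p, p < r → lab f p < 64 := by
    intro p hp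
    rw [hlab p hp]
    rcases hfv p hp with ⟨a, _, hal, _⟩ | ⟨h1, _⟩
    · rw [← hal]; exact plab_lt _ _
    · rw [h1]; exact plab_lt _ _
  have hvalid : Valid r nu nl K bans cur0 ps K f := by
    refine ⟨hflen, hcur, fun p hp => by rw [hps] at hp; exact List.mem_range.mp hp, hsmall, ?_,
      ?_, ?_, ?_⟩
    · intro p hp hp'
      exact absurd (by rw [hps]; exact List.mem_range.mpr hp) hp'
    · intro p hp
      rw [hlab p hp]
      rcases hfv p hp with ⟨a, ha, hal, _⟩ | ⟨h1, _⟩
      · rw [← hal]; exact lab_mem_labsOf ha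
      · rw [h1]; exact fresh_mem_labsOf _ _ _
    · intro p hp
      rw [hlab p hp]
      rcases hfv p hp with ⟨a, ha, hal, hφ⟩ | ⟨h1, _⟩
      · rw [Bool.eq_false_iff]
        intro hb
        have hσσ : σ (σ.symm ⟨p, hp⟩) = ⟨p, hp⟩ := by simp
        have := hav (σ.symm ⟨p, hp⟩) a ha (by
          rw [hσσ]
          show isBan bans p (plab a p) = true
          rw [hal]
          exact hb)
        apply this
        rw [hσσ]
        show φ (σ.symm ⟨p, hp⟩) (plab a p) = _
        rw [hal]
        exact hφ
      · rw [h1]; exact hfresh p hp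
    · intro M hM hpw hMlen
      by_contra hno
      push Not at hno
      have hno' : ∀ g' ∈ M, ∀ p, p < r → lab f p ≠ plab g' p := fun g' hg' p hp =>
        hno g' hg' p (by rw [hps]; exact List.mem_range.mpr hp)
      let im : ℕ → (Fin r → V) := fun e j => φ j (plab e (σ j))
      have hm1 : ∀ e ∈ x :: M.map im, e ∈ H := by
        intro e he
        rw [List.mem_cons, List.mem_map] at he
        rcases he with rfl | ⟨d, hd, rfl⟩
        · exact hx
        · exact hE.mem d (hM d hd)
      have hm2 : (x :: M.map im).Pairwise EdgeDisjoint := by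
        rw [List.pairwise_cons]
        constructor
        · intro e he
          rw [List.mem_map] at he
          obtain ⟨d, hd, rfl⟩ := he
          intro j hj
          have h1 := hno' d hd (σ j) (σ j).2
          rw [hlab _ (σ j).2] at h1
          rcases hfvσ j with ⟨a, ha, hal, hφ⟩ | ⟨_, h2⟩
          · apply h1
            have h3 : φ j (plab a (σ j)) = φ j (plab d (σ j)) := by
              rw [hal, hφ]; exact hj
            rw [← hal]
            exact hE.inj j a ha d (hM d hd) h3
          · exact h2 d (hM d hd) hj.symm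
        · rw [List.pairwise_map]
          refine List.Pairwise.imp_of_mem ?_ hpw
          intro a b ha hb hab j he
          have h1 := hE.inj j a (hM a ha) b (hM b hb) he
          exact disjRel_spec hab (σ j) h1
      have := hnu _ hm1 hm2
      simp only [List.length_cons, List.length_map, hMlen] at this
      omega
  refine ⟨f, genX_complete (by rw [hps]; simp) hvalid, hflen, hsmall, ?_⟩
  intro i
  rw [hlab _ (σ i).2]
  exact hfvσ i

lemma lab_surj : ∀ (l : List ℕ) (y : ℕ), y ∈ l → ∃ p, p < l.length ∧ lab l p = y := by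
  intro l
  induction l with
  | nil => intro y h; simp at h
  | cons a as ih =>
    intro y h
    rw [List.mem_cons] at h
    rcases h with rfl | h
    · exact ⟨0, by simp, rfl⟩
    · obtain ⟨p, hp, rfl⟩ := ih y h
      exact ⟨p + 1, by simpa using hp, rfl⟩

/-- A copy of `K` together with an edge `x` is a copy of the state with the pattern of `x`. -/
theorem Emb.extend {H : Finset (Fin r → V)} {σ : Equiv.Perm (Fin r)} {φ : Fin r → ℕ → V}
    {K : List ℕ} (hE : Emb H σ φ K) {x : Fin r → V} (hx : x ∈ H) {nl : ℕ} {f : List ℕ}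
    (hKnl : ∀ a ∈ K, ∀ p, p < r → plab a p < plab nl p) (hflen : f.length = r)
    (hfsm : ∀ p, p < r → lab f p < 64)
    (hf : ∀ i : Fin r, (∃ a ∈ K, plab a (σ i) = lab f (σ i) ∧ φ i (lab f (σ i)) = x i) ∨
        (lab f (σ i) = plab nl (σ i) ∧ ∀ a ∈ K, φ i (plab a (σ i)) ≠ x i)) :
    ∃ φ' : Fin r → ℕ → V, Emb H σ φ' (pack f :: K) ∧
      (∀ i, ∀ a ∈ K, φ' i (plab a (σ i)) = φ i (plab a (σ i))) ∧
      ∀ i, φ' i (plab (pack f) (σ i)) = x i := by
  classical
  have hpack : ∀ p, p < r → plab (pack f) p = lab f p := by
    intro p hp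
    apply plab_pack
    · intro y hy
      obtain ⟨q, hq, rfl⟩ := lab_surj f y hy
      exact hfsm q (by rwa [hflen] at hq)
    · rwa [hflen]
  let φ' : Fin r → ℕ → V := fun i' => Function.update (φ i') (plab nl (σ i')) (x i')
  have hφ'K : ∀ i', ∀ a ∈ K, φ' i' (plab a (σ i')) = φ i' (plab a (σ i')) := by
    intro i' a ha
    apply Function.update_of_ne
    exact (hKnl a ha _ (σ i').2).ne
  have hφ'f : ∀ i', φ' i' (lab f (σ i')) = x i' := by
    intro i'
    rcases hf i' with ⟨a, ha, hal, hφ⟩ | ⟨h1, _⟩
    · rw [← hal, hφ'K i' a ha, hal, hφ]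
    · rw [h1]
      exact Function.update_self _ _ _
  refine ⟨φ', ?_, hφ'K, fun i => by rw [hpack _ (σ i).2]; exact hφ'f i⟩
  constructor
  · intro e he
    rw [List.mem_cons] at he
    rcases he with rfl | he
    · convert hx using 2 with i'
      rw [hpack _ (σ i').2]
      exact hφ'f i'
    · have h1 := hE.mem e he
      convert h1 using 2 with i'
      exact hφ'K i' e he
  · intro i' a ha b hb he
    rw [List.mem_cons] at ha hb
    have hfv' : ∀ c ∈ K, φ i' (plab c (σ i')) = x i' → plab c (σ i') = lab f (σ i') := by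
      intro c hc hce
      rcases hf i' with ⟨a', ha', hal, hφ⟩ | ⟨_, h2⟩
      · rw [← hal]
        apply hE.inj i' c hc a' ha'
        rw [hce, hal, hφ]
      · exact absurd hce (h2 c hc)
    have hpk := hpack _ (σ i').2
    rcases ha with rfl | ha <;> rcases hb with rfl | hb
    · rfl
    · rw [hpk] at he ⊢
      rw [hφ'K i' b hb, hφ'f i'] at he
      exact (hfv' b hb he.symm).symm
    · rw [hpk] at he ⊢
      rw [hφ'K i' a ha, hφ'f i'] at he
      exact hfv' a ha he
    · rw [hφ'K i' a ha, hφ'K i' b hb] at he
      exact hE.inj i' a ha b hb he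

/-! ### Hints: copies of smaller states -/

/-- Is every entry of the first list in the second? -/
noncomputable def subsetB (A B : List ℕ) : Bool :=
  List.rec (motive := fun _ => Bool) true (fun d _ ih => bsel (memN d B) ih false) A

lemma subsetB_spec {A B : List ℕ} (h : subsetB A B = true) : ∀ d ∈ A, d ∈ B := by
  induction A with
  | nil => intro d hd; simp at hd
  | cons x xs ih =>
    have h' : bsel (memN x B) (subsetB xs B) false = true := h
    cases hm : memN x B with
    | true =>
      rw [hm, bsel_true] at h'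
      intro d hd
      rw [List.mem_cons] at hd
      rcases hd with rfl | hd
      · exact memN_mem hm
      · exact ih h' d hd
    | false =>
      rw [hm, bsel_false] at h'
      cases h'

/-- Read a table of digits, `W` entries for each part. -/
def tauAt (tau W p l : ℕ) : ℕ := plab tau (Nat.add (Nat.mul p W) l)

/-- The image of the tuple `d` of a smaller state: part `p` of the image comes from part
`plab rho p` of `d`, through the table `tau`. -/
noncomputable def imgOf (rho tau W d : ℕ) (ps : List ℕ) : ℕ :=
  List.rec (motive := fun _ => ℕ) 0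
    (fun p _ ih => Nat.add (tauAt tau W p (plab d (plab rho p))) (Nat.mul ih 64)) ps

lemma imgOf_eq (rho tau W d : ℕ) (ps : List ℕ) :
    imgOf rho tau W d ps = pack (ps.map fun p => tauAt tau W p (plab d (plab rho p))) := by
  induction ps with
  | nil => rfl
  | cons p ps ih =>
    have h0 : imgOf rho tau W d (p :: ps) =
      Nat.add (tauAt tau W p (plab d (plab rho p))) (Nat.mul (imgOf rho tau W d ps) 64) := rfl
    rw [h0, ih, List.map_cons, pack_cons]
    rfl

lemma plab_imgOf {r : ℕ} (rho tau W d : ℕ) {ps : List ℕ} (hps : ps = List.range r) {p : ℕ}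
    (hp : p < r) : plab (imgOf rho tau W d ps) p = tauAt tau W p (plab d (plab rho p)) := by
  rw [imgOf_eq, hps]
  rw [plab_pack]
  · exact lab_map_range r _ p hp
  · intro x hx
    rw [List.mem_map] at hx
    obtain ⟨q, _, rfl⟩ := hx
    exact plab_lt _ _
  · simpa using hp

/-- The table `iota` undoes the table `tau` on the labels of the tuple `d`. -/
noncomputable def okInv (rho tau iota W d : ℕ) (ps : List ℕ) : Bool :=
  List.rec (motive := fun _ => Bool) true
    (fun p _ ih => bsel (Nat.beq (tauAt iota W p (tauAt tau W p (plab d (plab rho p))))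
      (plab d (plab rho p))) ih false) ps

lemma okInv_spec {rho tau iota W d : ℕ} {ps : List ℕ} (h : okInv rho tau iota W d ps = true) :
    ∀ p ∈ ps, tauAt iota W p (tauAt tau W p (plab d (plab rho p))) = plab d (plab rho p) := by
  induction ps with
  | nil => intro p hp; simp at hp
  | cons q qs ih =>
    have h' : bsel (Nat.beq (tauAt iota W q (tauAt tau W q (plab d (plab rho q))))
      (plab d (plab rho q))) (okInv rho tau iota W d qs) false = true := h
    cases hb : Nat.beq (tauAt iota W q (tauAt tau W q (plab d (plab rho q))))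
      (plab d (plab rho q)) with
    | true =>
      rw [hb, bsel_true] at h'
      intro p hp
      rw [List.mem_cons] at hp
      rcases hp with rfl | hp
      · exact beq_true.mp hb
      · exact ih h' p hp
    | false =>
      rw [hb, bsel_false] at h'
      cases h'

/-- The check for all tuples of a smaller state. -/
noncomputable def okRows (rho tau iota W : ℕ) (ps K' Kj : List ℕ) : Bool :=
  List.rec (motive := fun _ => Bool) true
    (fun d _ ih => bsel (okInv rho tau iota W d ps)
      (bsel (memN (imgOf rho tau W d ps) K') ih false) false) Kj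

lemma okRows_spec {rho tau iota W : ℕ} {ps K' Kj : List ℕ}
    (h : okRows rho tau iota W ps K' Kj = true) :
    ∀ d ∈ Kj, okInv rho tau iota W d ps = true ∧ imgOf rho tau W d ps ∈ K' := by
  induction Kj with
  | nil => intro d hd; simp at hd
  | cons x xs ih =>
    have h' : bsel (okInv rho tau iota W x ps)
      (bsel (memN (imgOf rho tau W x ps) K') (okRows rho tau iota W ps K' xs) false) false = true := h
    cases h1 : okInv rho tau iota W x ps with
    | true =>
      rw [h1, bsel_true] at h'
      cases h2 : memN (imgOf rho tau W x ps) K' with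
      | true =>
        rw [h2, bsel_true] at h'
        intro d hd
        rw [List.mem_cons] at hd
        rcases hd with rfl | hd
        · exact ⟨h1, memN_mem h2⟩
        · exact ih h' d hd
      | false =>
        rw [h2, bsel_false] at h'
        cases h'
    | false =>
      rw [h1, bsel_false] at h'
      cases h'

/-- The digits of `rho` in the parts `ps` are different numbers below `r`, none in `seen`. -/
noncomputable def okRho (r rho : ℕ) (ps : List ℕ) : List ℕ → Bool :=
  List.rec (motive := fun _ => List ℕ → Bool) (fun _ => true)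
    (fun p _ ih seen => bsel (Nat.blt (plab rho p) r)
      (bsel (memN (plab rho p) seen) false (ih (plab rho p :: seen))) false) ps

lemma okRho_spec {r rho : ℕ} {ps : List ℕ} : ∀ seen : List ℕ, okRho r rho ps seen = true →
    (∀ p ∈ ps, plab rho p < r) ∧ (ps.map (plab rho)).Nodup ∧ ∀ p ∈ ps, plab rho p ∉ seen := by
  induction ps with
  | nil => intro seen _; simp
  | cons q qs ih =>
    intro seen h
    have h' : bsel (Nat.blt (plab rho q) r)
      (bsel (memN (plab rho q) seen) false (okRho r rho qs (plab rho q :: seen))) false = true := h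
    cases h1 : Nat.blt (plab rho q) r with
    | true =>
      rw [h1, bsel_true] at h'
      cases h2 : memN (plab rho q) seen with
      | true =>
        rw [h2, bsel_true] at h'
        cases h'
      | false =>
        rw [h2, bsel_false] at h'
        obtain ⟨h3, h4, h5⟩ := ih _ h'
        have hq : plab rho q ∉ seen := fun hm => by
          rw [mem_memN hm] at h2
          cases h2
        refine ⟨?_, ?_, ?_⟩
        · intro p hp
          rw [List.mem_cons] at hp
          rcases hp with rfl | hp
          · exact blt_true.mp h1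
          · exact h3 p hp
        · rw [List.map_cons, List.nodup_cons]
          refine ⟨?_, h4⟩
          intro hm
          rw [List.mem_map] at hm
          obtain ⟨t, ht, he⟩ := hm
          apply h5 t ht
          rw [he]
          simp
        · intro p hp
          rw [List.mem_cons] at hp
          rcases hp with rfl | hp
          · exact hq
          · intro hm
            exact h5 p hp (List.mem_cons_of_mem _ hm)
    | false =>
      rw [h1, bsel_false] at h'
      cases h'

/-- A permutation of the parts from a checked number. -/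
lemma exists_rhoPerm {r rho : ℕ} {ps : List ℕ} (hps : ps = List.range r)
    (h : okRho r rho ps [] = true) :
    ∃ ρ : Equiv.Perm (Fin r), ∀ i, ((ρ i : Fin r) : ℕ) = plab rho i := by
  obtain ⟨h1, h2, _⟩ := okRho_spec _ h
  subst hps
  have hlt : ∀ i : Fin r, plab rho i < r := fun i => h1 i (List.mem_range.mpr i.2)
  have hinj : Function.Injective (fun i : Fin r => (⟨plab rho i, hlt i⟩ : Fin r)) := by
    intro a b hab
    have h3 : plab rho a = plab rho b := congrArg Fin.val hab
    have h4 := List.inj_on_of_nodup_map h2 (List.mem_range.mpr a.2) (List.mem_range.mpr b.2) h3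
    exact Fin.ext h4
  exact ⟨Equiv.ofBijective _ (Finite.injective_iff_bijective.mp hinj), fun i => rfl⟩

/-- A copy of `K'` gives a copy of every state that the table check finds inside `K'`. -/
theorem Emb.of_table {H : Finset (Fin r → V)} {σ : Equiv.Perm (Fin r)} {φ : Fin r → ℕ → V}
    {K' Kj : List ℕ} {rho tau iota W : ℕ} {ps : List ℕ} (hps : ps = List.range r)
    (hE : Emb H σ φ K') (hrho : okRho r rho ps [] = true)
    (hok : okRows rho tau iota W ps K' Kj = true) :
    ∃ ρ : Equiv.Perm (Fin r), (∀ i, ((ρ i : Fin r) : ℕ) = plab rho i) ∧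
      Emb H (σ.trans ρ) (fun i l => φ i (tauAt tau W (σ i) l)) Kj ∧
      ∀ d ∈ Kj, ∃ d' ∈ K', ∀ i, φ i (tauAt tau W (σ i) (plab d ((σ.trans ρ) i))) =
        φ i (plab d' (σ i)) := by
  obtain ⟨ρ, hρ⟩ := exists_rhoPerm hps hrho
  have hK := okRows_spec hok
  have himg : ∀ d, ∀ i : Fin r, plab (imgOf rho tau W d ps) (σ i) =
      tauAt tau W (σ i) (plab d ((σ.trans ρ) i)) := by
    intro d i
    rw [plab_imgOf rho tau W d hps (σ i).2]
    have : plab rho (σ i) = (((σ.trans ρ) i : Fin r) : ℕ) := (hρ (σ i)).symm
    rw [this]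
  refine ⟨ρ, hρ, ?_, ?_⟩
  · constructor
    · intro d hd
      have h2 := hE.mem _ (hK d hd).2
      convert h2 using 2 with i
      rw [himg]
    · intro i a ha b hb he
      have hai := hE.inj i _ (hK a ha).2 _ (hK b hb).2
      rw [himg, himg] at hai
      have h4 := hai he
      have hia := okInv_spec (hK a ha).1 (σ i) (by rw [hps]; exact List.mem_range.mpr (σ i).2)
      have hib := okInv_spec (hK b hb).1 (σ i) (by rw [hps]; exact List.mem_range.mpr (σ i).2)
      have hv : plab rho (σ i) = (((σ.trans ρ) i : Fin r) : ℕ) := (hρ (σ i)).symm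
      rw [hv] at hia hib
      rw [← hia, ← hib, h4]
  · intro d hd
    refine ⟨_, (hK d hd).2, fun i => ?_⟩
    rw [himg]

/-! ### The states that are dead -/

/-- A state with a pending number `k`: it has no copy in `H` for which there are `k` further edges
of `H` that differ pairwise in the parts of `pa` and `pb`, and from the edges of the copy there. -/
def DeadL (H : Finset (Fin r → V)) (pa pb : Fin r) (k : ℕ) (K : List ℕ) : Prop :=
  ∀ (σ : Equiv.Perm (Fin r)) (φ : Fin r → ℕ → V), Emb H σ φ K → ∀ xs : List (Fin r → V),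
    xs.length = k → (∀ x ∈ xs, x ∈ H) →
    xs.Pairwise (fun a b => a (σ.symm pa) ≠ b (σ.symm pa) ∧ a (σ.symm pb) ≠ b (σ.symm pb)) →
    (∀ x ∈ xs, ∀ e ∈ K, x (σ.symm pa) ≠ φ (σ.symm pa) (plab e pa) ∧
      x (σ.symm pb) ≠ φ (σ.symm pb) (plab e pb)) → False

/-! ### Reading a row of the table -/

/-- Read `n` numbers of the given width. -/
noncomputable def takeW (bits mask n : ℕ) : ℕ → List ℕ :=
  Nat.rec (motive := fun _ => ℕ → List ℕ) (fun _ => [])
    (fun _ ih w => Nat.land w mask :: ih (Nat.shiftRight w bits)) n

lemma length_takeW (bits mask n w : ℕ) : (takeW bits mask n w).length = n := by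
  induction n generalizing w with
  | zero => rfl
  | succ n ih =>
    have h0 : takeW bits mask (n + 1) w =
      Nat.land w mask :: takeW bits mask n (Nat.shiftRight w bits) := rfl
    rw [h0, List.length_cons, ih]

/-- The number of edges of a row. -/
def rowM (w : ℕ) : ℕ := Nat.land w 63
/-- The pending number of a row. -/
def rowLev (w : ℕ) : ℕ := Nat.land (Nat.shiftRight w 6) 15
/-- The number of named vertices of a row. -/
def rowC (w : ℕ) : ℕ := Nat.land (Nat.shiftRight w 10) 15
/-- The fresh labels of a row. -/
def rowNl (w : ℕ) : ℕ := Nat.shiftRight w 14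
/-- The start of the named vertices. -/
def off1 (r : ℕ) : ℕ := Nat.add 14 (Nat.mul r 6)
/-- The start of the edges. -/
def off2 (r c : ℕ) : ℕ := Nat.add (off1 r) (Nat.mul c 12)
/-- The start of the hints. -/
def off3 (r c m : ℕ) : ℕ := Nat.add (off2 r c) (Nat.mul (Nat.mul m r) 6)

/-- The named vertices of a row. -/
noncomputable def rowCov (r w : ℕ) : List ℕ :=
  takeW 12 4095 (rowC w) (Nat.shiftRight w (off1 r))

/-- The edges of a row. -/
noncomputable def rowK (r w : ℕ) : List ℕ :=
  takeW (Nat.mul r 6) (Nat.sub (Nat.pow 2 (Nat.mul r 6)) 1) (rowM w)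
    (Nat.shiftRight w (off2 r (rowC w)))

/-- The hints of a row, after the width of one hint. -/
def rowS (r w : ℕ) : ℕ := Nat.shiftRight w (off3 r (rowC w) (rowM w))

/-! ### The checks -/

/-- Add a vertex, named by its number, to a mask. -/
def addV (b v : ℕ) : ℕ := Nat.lor b (Nat.shiftLeft 1 v)

lemma isBan_addV (b p l v : ℕ) :
    isBan (addV b v) p l = true ↔ isBan b p l = true ∨ vbit p l = v := by
  rw [isBan_eq, isBan_eq]
  have h1 : addV b v = b ||| (1 <<< v) := rfl
  rw [h1, Nat.testBit_or, Bool.or_eq_true, Nat.one_shiftLeft, Nat.testBit_two_pow]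
  simp only [decide_eq_true_eq]
  constructor
  · rintro (h | h)
    · exact Or.inl h
    · exact Or.inr h.symm
  · rintro (h | h)
    · exact Or.inl h
    · exact Or.inr h.symm

/-- The mask of a list of vertices given by numbers. -/
noncomputable def maskV (C : List ℕ) : ℕ :=
  List.rec (motive := fun _ => ℕ) 0 (fun v _ ih => addV ih v) C

lemma isBan_maskV {p l : ℕ} : ∀ C : List ℕ, isBan (maskV C) p l = true → vbit p l ∈ C := by
  intro C
  induction C with
  | nil =>
    intro h
    have h0 : maskV [] = 0 := rfl
    rw [h0, isBan_eq] at h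
    simp at h
  | cons v vs ih =>
    intro h
    have h0 : maskV (v :: vs) = addV (maskV vs) v := rfl
    rw [h0, isBan_addV] at h
    rcases h with h | h
    · exact List.mem_cons_of_mem _ (ih h)
    · rw [h]
      simp

/-- The mask of the vertices of a state in the two parts `pa` and `pb`. -/
noncomputable def levBans (pa pb : ℕ) (K : List ℕ) : ℕ :=
  List.rec (motive := fun _ => ℕ) 0
    (fun e _ ih => addBan (addBan ih pa (plab e pa)) pb (plab e pb)) K

lemma isBan_levBans {pa pb p l : ℕ} (hl : l < 64) : ∀ K : List ℕ, isBan (levBans pa pb K) p l = true →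
    ∃ e ∈ K, (p = pa ∧ plab e pa = l) ∨ (p = pb ∧ plab e pb = l) := by
  intro K
  induction K with
  | nil =>
    intro h
    have h0 : levBans pa pb [] = 0 := rfl
    rw [h0, isBan_eq] at h
    simp at h
  | cons e es ih =>
    intro h
    have h0 : levBans pa pb (e :: es) = addBan (addBan (levBans pa pb es) pa (plab e pa)) pb
      (plab e pb) := rfl
    rw [h0, isBan_addBan, isBan_addBan] at h
    rcases h with (h | h) | h
    · obtain ⟨x, hx, h2⟩ := ih h
      exact ⟨x, List.mem_cons_of_mem _ hx, h2⟩
    · obtain ⟨rfl, h3⟩ := vbit_inj (plab_lt e pa) hl h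
      exact ⟨e, by simp, Or.inl ⟨rfl, h3.symm⟩⟩
    · obtain ⟨rfl, h3⟩ := vbit_inj (plab_lt e pb) hl h
      exact ⟨e, by simp, Or.inr ⟨rfl, h3.symm⟩⟩

/-- No fresh label is banned. -/
noncomputable def freshOK (bans nl : ℕ) (ps : List ℕ) : Bool :=
  List.rec (motive := fun _ => Bool) true
    (fun p _ ih => bsel (isBan bans p (plab nl p)) false ih) ps

lemma freshOK_spec {bans nl : ℕ} {ps : List ℕ} (h : freshOK bans nl ps = true) :
    ∀ p ∈ ps, isBan bans p (plab nl p) = false := by
  induction ps with
  | nil => intro p hp; simp at hp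
  | cons q qs ih =>
    have h' : bsel (isBan bans q (plab nl q)) false (freshOK bans nl qs) = true := h
    cases hb : isBan bans q (plab nl q) with
    | true =>
      rw [hb, bsel_true] at h'
      cases h'
    | false =>
      rw [hb, bsel_false] at h'
      intro p hp
      rw [List.mem_cons] at hp
      rcases hp with rfl | hp
      · exact hb
      · exact ih h' p hp

/-- The labels of a tuple are below the fresh labels. -/
noncomputable def ltAll (e nl : ℕ) (ps : List ℕ) : Bool :=
  List.rec (motive := fun _ => Bool) true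
    (fun p _ ih => bsel (Nat.blt (plab e p) (plab nl p)) ih false) ps

lemma ltAll_spec {e nl : ℕ} {ps : List ℕ} (h : ltAll e nl ps = true) :
    ∀ p ∈ ps, plab e p < plab nl p := by
  induction ps with
  | nil => intro p hp; simp at hp
  | cons q qs ih =>
    have h' : bsel (Nat.blt (plab e q) (plab nl q)) (ltAll e nl qs) false = true := h
    cases hb : Nat.blt (plab e q) (plab nl q) with
    | true =>
      rw [hb, bsel_true] at h'
      intro p hp
      rw [List.mem_cons] at hp
      rcases hp with rfl | hp
      · exact blt_true.mp hb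
      · exact ih h' p hp
    | false =>
      rw [hb, bsel_false] at h'
      cases h'

/-- The labels of a state are below the fresh labels. -/
noncomputable def labelsOK (nl : ℕ) (ps K : List ℕ) : Bool :=
  List.rec (motive := fun _ => Bool) true (fun e _ ih => bsel (ltAll e nl ps) ih false) K

lemma labelsOK_spec {nl : ℕ} {ps K : List ℕ} (h : labelsOK nl ps K = true) :
    ∀ e ∈ K, ∀ p ∈ ps, plab e p < plab nl p := by
  induction K with
  | nil => intro e he; simp at he
  | cons x xs ih =>
    have h' : bsel (ltAll x nl ps) (labelsOK nl ps xs) false = true := h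
    cases hb : ltAll x nl ps with
    | true =>
      rw [hb, bsel_true] at h'
      intro e he
      rw [List.mem_cons] at he
      rcases he with rfl | he
      · exact ltAll_spec hb
      · exact ih h' e he
    | false =>
      rw [hb, bsel_false] at h'
      cases h'

/-- The part of a hint: the index of the smaller state. -/
def hintJ (s : ℕ) : ℕ := Nat.land (Nat.shiftRight s 1) 16777215

/-- The check of a hint that uses tables. Layout after the low `25` bits: `W` in `6` bits, `rho` in
`6 r` bits, `tau` in `6 r W` bits, `iota` in `6 r W` bits. The digits of `rho` must fix `pa` and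
`pb` when `fix` is true. -/
noncomputable def okTable (r pa pb : ℕ) (ps K' Kj : List ℕ) (fix : Bool) (W rho tau : ℕ) : Bool :=
  bsel (okRho r rho ps [])
    (bsel (bsel fix (bsel (Nat.beq (plab rho pa) pa) (Nat.beq (plab rho pb) pb) false) true)
      (okRows rho tau (Nat.shiftRight tau (Nat.mul (Nat.mul r W) 6)) W ps K' Kj) false)
    false

/-- The check of one hint for the pattern with state `K'`, at row `i` with pending number `lev`. -/
noncomputable def okHintB (r pa pb : ℕ) (ps K' : List ℕ) (lev s levj : ℕ) (Kj : List ℕ) : Bool :=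
  bsel (bsel (Nat.beq levj 0) true (Nat.beq (Nat.succ levj) lev))
    (bsel (Nat.beq (Nat.land s 1) 0)
      (subsetB Kj K')
      (okTable r pa pb ps K' Kj (bsel (Nat.beq levj 0) false true)
        (Nat.land (Nat.shiftRight s 25) 63)
        (Nat.shiftRight s 31)
        (Nat.shiftRight s (Nat.add 31 (Nat.mul r 6)))))
    false

/-- The check of one hint. -/
noncomputable def okHint (r pa pb : ℕ) (ps : List ℕ) (rows : ℕ → ℕ) (i lev : ℕ) (K' : List ℕ)
    (s : ℕ) : Bool :=
  bsel (Nat.blt (hintJ s) i)
    (okHintB r pa pb ps K' lev s (rowLev (rows (hintJ s))) (rowK r (rows (hintJ s))))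
    false

/-- The check of the hints of all patterns. -/
noncomputable def okHints (r pa pb : ℕ) (ps : List ℕ) (rows : ℕ → ℕ) (i lev : ℕ) (K : List ℕ)
    (hw : ℕ) (G : List (List ℕ)) : ℕ → Bool :=
  List.rec (motive := fun _ => ℕ → Bool) (fun _ => true)
    (fun f _ ih s => bsel (okHint r pa pb ps rows i lev (pack f :: K) s)
      (ih (Nat.shiftRight s hw)) false) G

/-- The check for the patterns of a row. -/
noncomputable def checkG (r pa pb : ℕ) (ps : List ℕ) (rows : ℕ → ℕ) (i lev nl : ℕ) (K : List ℕ)
    (s : ℕ) (G : List (List ℕ)) : Bool :=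
  List.rec (motive := fun _ => Bool) true
    (fun _ _ _ => bsel (labelsOK nl ps K)
      (okHints r pa pb ps rows i lev K (Nat.land s 4095) G (Nat.shiftRight s 12)) false) G

/-- The check of a row, given the mask of banned vertices. -/
noncomputable def checkB (r nu pa pb : ℕ) (ps cur0 : List ℕ) (rows : ℕ → ℕ) (i lev nl : ℕ)
    (K : List ℕ) (s bans : ℕ) : Bool :=
  bsel (freshOK bans nl ps)
    (checkG r pa pb ps rows i lev nl K s (genX r nu nl K bans cur0 ps))
    false

/-- The check of row number `i`. -/
noncomputable def checkEntry (r nu cb pa pb : ℕ) (ps cur0 : List ℕ) (rows : ℕ → ℕ) (i : ℕ) : Bool :=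
  bsel (Nat.beq (rowLev (rows i)) 0)
    (bsel (Nat.ble (rowC (rows i)) cb)
      (checkB r nu pa pb ps cur0 rows i 0 (rowNl (rows i)) (rowK r (rows i)) (rowS r (rows i))
        (maskV (rowCov r (rows i))))
      false)
    (checkB r nu pa pb ps cur0 rows i (rowLev (rows i)) (rowNl (rows i)) (rowK r (rows i))
      (rowS r (rows i)) (levBans pa pb (rowK r (rows i))))

/-- The check of a range of rows. -/
noncomputable def checkRange (r nu cb pa pb : ℕ) (ps cur0 : List ℕ) (rows : ℕ → ℕ) (a n : ℕ) : Bool :=
  Nat.rec (motive := fun _ => Bool) true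
    (fun m ih => bsel (checkEntry r nu cb pa pb ps cur0 rows (Nat.add a m)) ih false) n

lemma checkRange_spec {r nu cb pa pb : ℕ} {ps cur0 : List ℕ} {rows : ℕ → ℕ} {a n : ℕ}
    (h : checkRange r nu cb pa pb ps cur0 rows a n = true) :
    ∀ i, a ≤ i → i < a + n → checkEntry r nu cb pa pb ps cur0 rows i = true := by
  induction n with
  | zero => intro i h1 h2; omega
  | succ m ih =>
    have h' : bsel (checkEntry r nu cb pa pb ps cur0 rows (Nat.add a m))
      (checkRange r nu cb pa pb ps cur0 rows a m) false = true := h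
    cases hb : checkEntry r nu cb pa pb ps cur0 rows (Nat.add a m) with
    | true =>
      rw [hb, bsel_true] at h'
      intro i h1 h2
      by_cases hi : i = a + m
      · rw [hi]; exact hb
      · exact ih h' i h1 (by omega)
    | false =>
      rw [hb, bsel_false] at h'
      cases h'

/-! ### The step -/

/-- What a passed hint gives: a copy of the smaller state, compatible with the two parts when the
smaller state has a pending number. -/
theorem okHint_spec {H : Finset (Fin r → V)} {pa pb : ℕ} (hpa : pa < r) (hpb : pb < r)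
    {ps : List ℕ} (hps : ps = List.range r) {rows : ℕ → ℕ} {i lev : ℕ} {K' : List ℕ} {s : ℕ}
    (hok : okHint r pa pb ps rows i lev K' s = true)
    {σ : Equiv.Perm (Fin r)} {φ : Fin r → ℕ → V} (hE : Emb H σ φ K') :
    ∃ j, j < i ∧ ∃ (σ' : Equiv.Perm (Fin r)) (φ' : Fin r → ℕ → V),
      Emb H σ' φ' (rowK r (rows j)) ∧ (rowLev (rows j) = 0 ∨ (rowLev (rows j) + 1 = lev ∧
        σ'.symm ⟨pa, hpa⟩ = σ.symm ⟨pa, hpa⟩ ∧ σ'.symm ⟨pb, hpb⟩ = σ.symm ⟨pb, hpb⟩ ∧
        ∀ d ∈ rowK r (rows j), ∃ d' ∈ K',
          φ' (σ.symm ⟨pa, hpa⟩) (plab d pa) = φ (σ.symm ⟨pa, hpa⟩) (plab d' pa) ∧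
          φ' (σ.symm ⟨pb, hpb⟩) (plab d pb) = φ (σ.symm ⟨pb, hpb⟩) (plab d' pb))) := by
  have h0 : bsel (Nat.blt (hintJ s) i)
    (okHintB r pa pb ps K' lev s (rowLev (rows (hintJ s))) (rowK r (rows (hintJ s))))
    false = true := hok
  cases h1 : Nat.blt (hintJ s) i with
  | false =>
    rw [h1, bsel_false] at h0
    cases h0
  | true =>
    rw [h1, bsel_true] at h0
    refine ⟨hintJ s, blt_true.mp h1, ?_⟩
    set levj := rowLev (rows (hintJ s)) with hlevj
    set Kj := rowK r (rows (hintJ s)) with hKj
    have h2 : bsel (bsel (Nat.beq levj 0) true (Nat.beq (Nat.succ levj) lev))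
      (bsel (Nat.beq (Nat.land s 1) 0)
        (subsetB Kj K')
        (okTable r pa pb ps K' Kj (bsel (Nat.beq levj 0) false true)
          (Nat.land (Nat.shiftRight s 25) 63)
          (Nat.shiftRight s 31)
          (Nat.shiftRight s (Nat.add 31 (Nat.mul r 6)))))
      false = true := h0
    have hlev : levj = 0 ∨ (levj + 1 = lev ∧ Nat.beq levj 0 = false) := by
      cases h3 : Nat.beq levj 0 with
      | true => exact Or.inl (beq_true.mp h3)
      | false =>
        rw [h3, bsel_false] at h2
        cases h4 : Nat.beq (Nat.succ levj) lev with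
        | true => exact Or.inr ⟨beq_true.mp h4, rfl⟩
        | false =>
          rw [h4, bsel_false] at h2
          cases h2
    have hcond : bsel (Nat.beq levj 0) true (Nat.beq (Nat.succ levj) lev) = true := by
      cases h3 : bsel (Nat.beq levj 0) true (Nat.beq (Nat.succ levj) lev) with
      | true => rfl
      | false =>
        rw [h3, bsel_false] at h2
        cases h2
    rw [hcond, bsel_true] at h2
    cases h5 : Nat.beq (Nat.land s 1) 0 with
    | true =>
      rw [h5, bsel_true] at h2
      have hsub := subsetB_spec h2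
      refine ⟨σ, φ, ⟨fun e he => hE.mem e (hsub e he),
        fun i a ha b hb he => hE.inj i a (hsub a ha) b (hsub b hb) he⟩, ?_⟩
      rcases hlev with hl | ⟨hl, _⟩
      · exact Or.inl hl
      · exact Or.inr ⟨hl, rfl, rfl, fun d hd => ⟨d, hsub d hd, rfl, rfl⟩⟩
    | false =>
      rw [h5, bsel_false] at h2
      set W := Nat.land (Nat.shiftRight s 25) 63
      set rho := Nat.shiftRight s 31
      set tau := Nat.shiftRight s (Nat.add 31 (Nat.mul r 6))
      have h6 : bsel (okRho r rho ps [])
        (bsel (bsel (bsel (Nat.beq levj 0) false true)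
            (bsel (Nat.beq (plab rho pa) pa) (Nat.beq (plab rho pb) pb) false) true)
          (okRows rho tau (Nat.shiftRight tau (Nat.mul (Nat.mul r W) 6)) W ps K' Kj) false)
        false = true := h2
      cases h7 : okRho r rho ps [] with
      | false =>
        rw [h7, bsel_false] at h6
        cases h6
      | true =>
        rw [h7, bsel_true] at h6
        cases h8 : bsel (bsel (Nat.beq levj 0) false true)
            (bsel (Nat.beq (plab rho pa) pa) (Nat.beq (plab rho pb) pb) false) true with
        | false =>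
          rw [h8, bsel_false] at h6
          cases h6
        | true =>
          rw [h8, bsel_true] at h6
          obtain ⟨ρ, hρ, hEm, himg⟩ := Emb.of_table hps hE h7 h6
          refine ⟨σ.trans ρ, _, hEm, ?_⟩
          rcases hlev with hl | ⟨hl, hne⟩
          · exact Or.inl hl
          · right
            rw [hne] at h8
            have h9 : bsel (Nat.beq (plab rho pa) pa) (Nat.beq (plab rho pb) pb) false = true := h8
            cases h10 : Nat.beq (plab rho pa) pa with
            | false =>
              rw [h10, bsel_false] at h9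
              cases h9
            | true =>
              rw [h10, bsel_true] at h9
              have hfa : ρ ⟨pa, hpa⟩ = ⟨pa, hpa⟩ := Fin.ext (by
                rw [hρ]; exact beq_true.mp h10)
              have hfb : ρ ⟨pb, hpb⟩ = ⟨pb, hpb⟩ := Fin.ext (by
                rw [hρ]; exact beq_true.mp h9)
              have hsa : (σ.trans ρ).symm ⟨pa, hpa⟩ = σ.symm ⟨pa, hpa⟩ := by
                rw [Equiv.symm_apply_eq]
                simp [hfa]
              have hsb : (σ.trans ρ).symm ⟨pb, hpb⟩ = σ.symm ⟨pb, hpb⟩ := by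
                rw [Equiv.symm_apply_eq]
                simp [hfb]
              refine ⟨hl, hsa, hsb, ?_⟩
              intro d hd
              obtain ⟨d', hd', hi⟩ := himg d hd
              refine ⟨d', hd', ?_, ?_⟩
              · have := hi (σ.symm ⟨pa, hpa⟩)
                simpa [hfa] using this
              · have := hi (σ.symm ⟨pb, hpb⟩)
                simpa [hfb] using this

lemma okHints_spec {pa pb : ℕ} {ps : List ℕ} {rows : ℕ → ℕ} {i lev : ℕ} {K : List ℕ} {hw : ℕ} :
    ∀ (G : List (List ℕ)) (s : ℕ), okHints r pa pb ps rows i lev K hw G s = true →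
      ∀ f ∈ G, ∃ s', okHint r pa pb ps rows i lev (pack f :: K) s' = true := by
  intro G
  induction G with
  | nil => intro s _ f hf; simp at hf
  | cons g gs ih =>
    intro s h f hf
    have h' : bsel (okHint r pa pb ps rows i lev (pack g :: K) s)
      (okHints r pa pb ps rows i lev K hw gs (Nat.shiftRight s hw)) false = true := h
    cases hb : okHint r pa pb ps rows i lev (pack g :: K) s with
    | false =>
      rw [hb, bsel_false] at h'
      cases h'
    | true =>
      rw [hb, bsel_true] at h'
      rw [List.mem_cons] at hf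
      rcases hf with rfl | hf
      · exact ⟨s, hb⟩
      · exact ih _ h' f hf

/-- One step: an edge of `H` avoiding the banned vertices leads to a copy of an earlier state. -/
theorem step_core {H : Finset (Fin r → V)} {nu : ℕ} (hnu : MatchingNumberLE H nu)
    {pa pb : ℕ} (hpa : pa < r) (hpb : pb < r) {ps cur0 : List ℕ} (hps : ps = List.range r)
    (hcur : cur0.length = r) {rows : ℕ → ℕ} {i lev nl : ℕ} {K : List ℕ} {s bans : ℕ}
    (hchk : checkB r nu pa pb ps cur0 rows i lev nl K s bans = true)
    {σ : Equiv.Perm (Fin r)} {φ : Fin r → ℕ → V} (hE : Emb H σ φ K)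
    {x : Fin r → V} (hx : x ∈ H)
    (hav : ∀ i : Fin r, ∀ a ∈ K, isBan bans (σ i) (plab a (σ i)) = true →
      φ i (plab a (σ i)) ≠ x i) :
    ∃ j, j < i ∧ ∃ (σ' : Equiv.Perm (Fin r)) (φ' : Fin r → ℕ → V),
      Emb H σ' φ' (rowK r (rows j)) ∧ (rowLev (rows j) = 0 ∨ (rowLev (rows j) + 1 = lev ∧
        σ'.symm ⟨pa, hpa⟩ = σ.symm ⟨pa, hpa⟩ ∧ σ'.symm ⟨pb, hpb⟩ = σ.symm ⟨pb, hpb⟩ ∧
        ∀ d ∈ rowK r (rows j),
          (φ' (σ.symm ⟨pa, hpa⟩) (plab d pa) = x (σ.symm ⟨pa, hpa⟩) ∧
           φ' (σ.symm ⟨pb, hpb⟩) (plab d pb) = x (σ.symm ⟨pb, hpb⟩)) ∨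
          ∃ d' ∈ K,
            φ' (σ.symm ⟨pa, hpa⟩) (plab d pa) = φ (σ.symm ⟨pa, hpa⟩) (plab d' pa) ∧
            φ' (σ.symm ⟨pb, hpb⟩) (plab d pb) = φ (σ.symm ⟨pb, hpb⟩) (plab d' pb))) := by
  have h0 : bsel (freshOK bans nl ps)
    (checkG r pa pb ps rows i lev nl K s (genX r nu nl K bans cur0 ps))
    false = true := hchk
  cases h1 : freshOK bans nl ps with
  | false =>
    rw [h1, bsel_false] at h0
    cases h0
  | true =>
    rw [h1, bsel_true] at h0
    have hfr : ∀ p, p < r → isBan bans p (plab nl p) = false := fun p hp =>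
      freshOK_spec h1 p (by rw [hps]; exact List.mem_range.mpr hp)
    obtain ⟨f, hfG, hflen, hfsm, hf⟩ := exists_pattern hnu hE hx hps hcur hfr hav
    -- the list of patterns is not empty
    have hfG' : f ∈ genX r nu nl K bans cur0 ps := hfG
    generalize genX r nu nl K bans cur0 ps = G at h0 hfG'
    cases G with
    | nil => simp at hfG'
    | cons g gs =>
      have h2 : bsel (labelsOK nl ps K)
        (okHints r pa pb ps rows i lev K (Nat.land s 4095) (g :: gs) (Nat.shiftRight s 12))
        false = true := h0
      cases h3 : labelsOK nl ps K with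
      | false =>
        rw [h3, bsel_false] at h2
        cases h2
      | true =>
        rw [h3, bsel_true] at h2
        obtain ⟨s', hs'⟩ := okHints_spec _ _ h2 f hfG'
        have hKnl : ∀ a ∈ K, ∀ p, p < r → plab a p < plab nl p := fun a ha p hp =>
          labelsOK_spec h3 a ha p (by rw [hps]; exact List.mem_range.mpr hp)
        obtain ⟨φ₁, hE₁, hφK, hφx⟩ := hE.extend hx hKnl hflen hfsm hf
        obtain ⟨j, hj, σ', φ', hEj, hcase⟩ := okHint_spec hpa hpb hps hs' hE₁
        refine ⟨j, hj, σ', φ', hEj, ?_⟩
        rcases hcase with h4 | ⟨h4, h5, h6, h7⟩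
        · exact Or.inl h4
        · right
          refine ⟨h4, h5, h6, ?_⟩
          intro d hd
          obtain ⟨d', hd', he1, he2⟩ := h7 d hd
          rw [List.mem_cons] at hd'
          have hsa : σ (σ.symm ⟨pa, hpa⟩) = ⟨pa, hpa⟩ := by simp
          have hsb : σ (σ.symm ⟨pb, hpb⟩) = ⟨pb, hpb⟩ := by simp
          rcases hd' with rfl | hd'
          · left
            constructor
            · rw [he1]
              have := hφx (σ.symm ⟨pa, hpa⟩)
              rw [hsa] at this
              exact this
            · rw [he2]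
              have := hφx (σ.symm ⟨pb, hpb⟩)
              rw [hsb] at this
              exact this
          · right
            refine ⟨d', hd', ?_, ?_⟩
            · rw [he1]
              have := hφK (σ.symm ⟨pa, hpa⟩) d' hd'
              rw [hsa] at this
              exact this
            · rw [he2]
              have := hφK (σ.symm ⟨pb, hpb⟩) d' hd'
              rw [hsb] at this
              exact this

open Classical in
/-- The main step: if the check passes for a row whose earlier rows are dead, it is dead. -/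
theorem dead_step (hr : 0 < r) {H : Finset (Fin r → V)} {nu cb : ℕ}
    (hnu : MatchingNumberLE H nu) (hnc : ∀ C : Finset (Fin r × V), C.card ≤ cb → ¬ IsCover H C)
    {pa pb : ℕ} (hpa : pa < r) (hpb : pb < r) {ps cur0 : List ℕ} (hps : ps = List.range r)
    (hcur : cur0.length = r) {rows : ℕ → ℕ} {i : ℕ}
    (hok : checkEntry r nu cb pa pb ps cur0 rows i = true)
    (hprev : ∀ j, j < i → DeadL H ⟨pa, hpa⟩ ⟨pb, hpb⟩ (rowLev (rows j)) (rowK r (rows j))) :
    DeadL H ⟨pa, hpa⟩ ⟨pb, hpb⟩ (rowLev (rows i)) (rowK r (rows i)) := by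
  intro σ φ hE xs hlen hxs hpw hdiff
  have h0 : bsel (Nat.beq (rowLev (rows i)) 0)
    (bsel (Nat.ble (rowC (rows i)) cb)
      (checkB r nu pa pb ps cur0 rows i 0 (rowNl (rows i)) (rowK r (rows i)) (rowS r (rows i))
        (maskV (rowCov r (rows i))))
      false)
    (checkB r nu pa pb ps cur0 rows i (rowLev (rows i)) (rowNl (rows i)) (rowK r (rows i))
      (rowS r (rows i)) (levBans pa pb (rowK r (rows i)))) = true := hok
  -- a child that has no pending number ends the proof
  have hend : ∀ j, j < i → ∀ (σ' : Equiv.Perm (Fin r)) (φ' : Fin r → ℕ → V),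
      Emb H σ' φ' (rowK r (rows j)) → rowLev (rows j) = 0 → False := by
    intro j hj σ' φ' hEj hl
    refine hprev j hj σ' φ' hEj [] (by simp [hl]) (by simp) (by simp) (by simp)
  cases h1 : Nat.beq (rowLev (rows i)) 0 with
  | true =>
    rw [h1, bsel_true] at h0
    cases h2 : Nat.ble (rowC (rows i)) cb with
    | false =>
      rw [h2, bsel_false] at h0
      cases h0
    | true =>
      rw [h2, bsel_true] at h0
      let g : ℕ → Fin r × V := fun v =>
        (σ.symm ⟨(v / 64) % r, Nat.mod_lt _ hr⟩, φ (σ.symm ⟨(v / 64) % r, Nat.mod_lt _ hr⟩) (v % 64))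
      have hcard : (((rowCov r (rows i)).map g).toFinset).card ≤ cb := by
        refine le_trans (List.toFinset_card_le _) ?_
        rw [List.length_map]
        have h3 : (rowCov r (rows i)).length = rowC (rows i) := length_takeW _ _ _ _
        rw [h3]
        exact Nat.le_of_ble_eq_true h2
      have hnc' := hnc _ hcard
      simp only [IsCover, not_forall, not_exists] at hnc'
      obtain ⟨x, hxH, hx⟩ := hnc'
      have hav : ∀ i' : Fin r, ∀ a ∈ rowK r (rows i),
          isBan (maskV (rowCov r (rows i))) (σ i') (plab a (σ i')) = true →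
          φ i' (plab a (σ i')) ≠ x i' := by
        intro i' a _ hb he
        have hv := isBan_maskV _ hb
        apply hx i'
        rw [List.mem_toFinset, List.mem_map]
        refine ⟨_, hv, ?_⟩
        have hl : plab a (σ i') < 64 := plab_lt _ _
        have h4 : vbit (σ i') (plab a (σ i')) = (σ i' : ℕ) * 64 + plab a (σ i') := rfl
        have h5 : (vbit (σ i') (plab a (σ i'))) / 64 = (σ i' : ℕ) := by
          rw [h4]; omega
        have h6 : (vbit (σ i') (plab a (σ i'))) % 64 = plab a (σ i') := by
          rw [h4]; omega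
        have h7 : (⟨((σ i' : ℕ)) % r, Nat.mod_lt _ hr⟩ : Fin r) = σ i' :=
          Fin.ext (Nat.mod_eq_of_lt (σ i').2)
        simp only [g, h5, h6, h7, Equiv.symm_apply_apply, he]
      obtain ⟨j, hj, σ', φ', hEj, hcase⟩ := step_core hnu hpa hpb hps hcur h0 hE hxH hav
      rcases hcase with h4 | ⟨h4, _⟩
      · exact hend j hj σ' φ' hEj h4
      · omega
  | false =>
    rw [h1, bsel_false] at h0
    have hne : rowLev (rows i) ≠ 0 := fun he => by
      rw [he] at h1
      cases h1
    cases xs with
    | nil => exact hne (by simpa using hlen.symm)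
    | cons x xs' =>
      have hxH : x ∈ H := hxs x (by simp)
      have hav : ∀ i' : Fin r, ∀ a ∈ rowK r (rows i),
          isBan (levBans pa pb (rowK r (rows i))) (σ i') (plab a (σ i')) = true →
          φ i' (plab a (σ i')) ≠ x i' := by
        intro i' a _ hb he
        obtain ⟨e, heK, hc⟩ := isBan_levBans (plab_lt _ _) _ hb
        have hd := hdiff x (by simp) e heK
        rcases hc with ⟨h3, h4⟩ | ⟨h3, h4⟩
        · have hi' : σ i' = ⟨pa, hpa⟩ := Fin.ext h3
          have hi2 : σ.symm ⟨pa, hpa⟩ = i' := by
            rw [← hi']; simp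
          apply hd.1
          rw [hi2]
          have : plab e pa = plab a (σ i') := h4
          rw [this, he]
        · have hi' : σ i' = ⟨pb, hpb⟩ := Fin.ext h3
          have hi2 : σ.symm ⟨pb, hpb⟩ = i' := by
            rw [← hi']; simp
          apply hd.2
          rw [hi2]
          have : plab e pb = plab a (σ i') := h4
          rw [this, he]
      obtain ⟨j, hj, σ', φ', hEj, hcase⟩ := step_core hnu hpa hpb hps hcur h0 hE hxH hav
      rcases hcase with h4 | ⟨h4, h5, h6, h7⟩
      · exact hend j hj σ' φ' hEj h4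
      · rw [List.pairwise_cons] at hpw
        refine hprev j hj σ' φ' hEj xs' ?_ ?_ ?_ ?_
        · simp only [List.length_cons] at hlen
          omega
        · exact fun y hy => hxs y (List.mem_cons_of_mem _ hy)
        · rw [h5, h6]
          exact hpw.2
        · intro y hy d hd
          rw [h5, h6]
          have hyd : (φ' (σ.symm ⟨pa, hpa⟩) (plab d pa) = x (σ.symm ⟨pa, hpa⟩) ∧
             φ' (σ.symm ⟨pb, hpb⟩) (plab d pb) = x (σ.symm ⟨pb, hpb⟩)) ∨
            ∃ d' ∈ rowK r (rows i),
              φ' (σ.symm ⟨pa, hpa⟩) (plab d pa) = φ (σ.symm ⟨pa, hpa⟩) (plab d' pa) ∧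
              φ' (σ.symm ⟨pb, hpb⟩) (plab d pb) = φ (σ.symm ⟨pb, hpb⟩) (plab d' pb) := h7 d hd
          rcases hyd with ⟨h8, h9⟩ | ⟨d', hd', h8, h9⟩
          · have := hpw.1 y hy
            constructor
            · show y (σ.symm ⟨pa, hpa⟩) ≠ φ' (σ.symm ⟨pa, hpa⟩) (plab d pa)
              rw [h8]
              exact this.1.symm
            · show y (σ.symm ⟨pb, hpb⟩) ≠ φ' (σ.symm ⟨pb, hpb⟩) (plab d pb)
              rw [h9]
              exact this.2.symm
          · have := hdiff y (List.mem_cons_of_mem _ hy) d' hd'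
            constructor
            · show y (σ.symm ⟨pa, hpa⟩) ≠ φ' (σ.symm ⟨pa, hpa⟩) (plab d pa)
              rw [h8]
              exact this.1
            · show y (σ.symm ⟨pb, hpb⟩) ≠ φ' (σ.symm ⟨pb, hpb⟩) (plab d pb)
              rw [h9]
              exact this.2

/-- The certificate theorem: if all rows below `n` pass the check and the row `root` is empty with
pending number `cb + 1`, every `H` with matching number at most `nu` has a cover of size at most
`cb`. -/
theorem cover_of_table {nu cb pa pb : ℕ} (hpa : pa < r) (hpb : pb < r) {ps cur0 : List ℕ}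
    (hps : ps = List.range r) (hcur : cur0.length = r) (rows : ℕ → ℕ) (n root : ℕ)
    (hall : ∀ i, i < n → checkEntry r nu cb pa pb ps cur0 rows i = true)
    (hroot : root < n) (hlev : rowLev (rows root) = cb + 1) (hK : rowK r (rows root) = [])
    (H : Finset (Fin r → V)) (hH : MatchingNumberLE H nu) :
    ∃ C : Finset (Fin r × V), C.card ≤ cb ∧ IsCover H C := by
  by_contra hno
  push Not at hno
  have hr : 0 < r := by omega
  have key : ∀ i, i < n → DeadL H ⟨pa, hpa⟩ ⟨pb, hpb⟩ (rowLev (rows i)) (rowK r (rows i)) := by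
    intro i
    induction i using Nat.strong_induction_on with
    | _ i ih =>
      intro hi
      exact dead_step hr hH hno hpa hpb hps hcur (hall i hi) (fun j hj => ih j hj (by omega))
  obtain ⟨L, hLlen, hLH, hLpw⟩ := exists_pair_disjoint_list H ⟨pa, hpa⟩ ⟨pb, hpb⟩ (cb + 1)
    (fun C hC => hno C (by omega))
  cases L with
  | nil => simp at hLlen
  | cons x xs =>
    refine key root hroot 1 (fun i _ => x i) ?_ (x :: xs) (by rw [hlev]; exact hLlen) hLH ?_ ?_
    · rw [hK]
      exact ⟨fun e he => by simp at he, fun i a ha => by simp at ha⟩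
    · exact hLpw
    · intro y _ e he
      rw [hK] at he
      simp at he

/-! ### Tables of rows -/

/-- The entry of a list, with a default. -/
noncomputable def idx {α : Type} (d : α) (l : List α) : ℕ → α :=
  List.rec (motive := fun _ => ℕ → α) (fun _ => d)
    (fun x _ ih n => Nat.rec (motive := fun _ => α) x (fun m _ => ih m) n) l

/-- Rows stored in a tree of lists with `16` branches in the lower levels. -/
noncomputable def rowsOf (top : List (List (List (List ℕ)))) (i : ℕ) : ℕ :=
  idx 0 (idx [] (idx [] (idx [] top (Nat.shiftRight i 12)) (Nat.land (Nat.shiftRight i 8) 15))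
    (Nat.land (Nat.shiftRight i 4) 15)) (Nat.land i 15)

end Vale.Agent.P045.C2
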