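import Mathlib

/-!
Definitions for Ryser's conjecture on `r`-partite hypergraphs.

An `r`-partite `r`-uniform hypergraph is a finite set `H` of functions `Fin r → V`: an edge picks
one vertex `e i` in each part `i`, and the vertex of part `i` with name `v` is the pair `(i, v)`.
-/

namespace Vale.Agent.P045

variable {r : ℕ} {V : Type*}

/-- Two edges are disjoint when they differ in every part. -/
def EdgeDisjoint (a b : Fin r → V) : Prop := ∀ i, a i ≠ b i

/-- The matching number of `H` is at most `k`: among any `k + 1` edges listed without repetition,
two of them share a vertex. We state this through lists of edges. -/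
def MatchingNumberLE (H : Finset (Fin r → V)) (k : ℕ) : Prop :=
  ∀ M : List (Fin r → V), (∀ e ∈ M, e ∈ H) → M.Pairwise EdgeDisjoint → M.length ≤ k

/-- `C` is a vertex cover of `H`: every edge contains a vertex of `C`. -/
def IsCover (H : Finset (Fin r → V)) (C : Finset (Fin r × V)) : Prop :=
  ∀ e ∈ H, ∃ i, (i, e i) ∈ C

end Vale.Agent.P045
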