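import Vale.Agent.P045.Defs

/-!
A form of König's theorem for two parts of an `r`-partite hypergraph: if no set of fewer than `k`
vertices covers `H`, then `H` has `k` edges that pairwise differ in both of two given parts.
-/

namespace Vale.Agent.P045

open Finset

variable {r : ℕ} {V : Type*}

open Classical in
theorem exists_pair_disjoint_list (H : Finset (Fin r → V)) (p q : Fin r) (k : ℕ)
    (hno : ∀ C : Finset (Fin r × V), C.card < k → ¬ IsCover H C) :
    ∃ L : List (Fin r → V), L.length = k ∧ (∀ x ∈ L, x ∈ H) ∧
      L.Pairwise (fun a b => a p ≠ b p ∧ a q ≠ b q) := by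
  -- the first part and the neighbours
  let A : Finset V := H.image (fun e => e p)
  let N : V → Finset V := fun a => (H.filter (fun e => e p = a)).image (fun e => e q)
  let NS : Finset V → Finset V := fun S => S.biUnion N
  -- the deficiency
  let defi : Finset V → ℕ := fun S => S.card - (NS S).card
  obtain ⟨S0, hS0, hmax, hS0N⟩ : ∃ S0 ∈ A.powerset, (∀ S ∈ A.powerset, defi S ≤ defi S0) ∧
      (NS S0).card ≤ S0.card := by
    obtain ⟨S1, hS1, hmax1⟩ : ∃ S1 ∈ A.powerset, ∀ S ∈ A.powerset, defi S ≤ defi S1 :=
      Finset.exists_max_image _ _ ⟨∅, by simp⟩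
    by_cases h0 : defi S1 = 0
    · refine ⟨∅, by simp, fun S hS => ?_, by simp [NS]⟩
      have := hmax1 S hS
      omega
    · refine ⟨S1, hS1, hmax1, ?_⟩
      simp only [defi] at h0
      omega
  have hS0A : S0 ⊆ A := Finset.mem_powerset.mp hS0
  let d := defi S0
  -- the cover from `S0`
  let C : Finset (Fin r × V) :=
    ((A \ S0).image (fun a => (p, a))) ∪ ((NS S0).image (fun b => (q, b)))
  have hCcover : IsCover H C := by
    intro e he
    by_cases hS : e p ∈ S0
    · refine ⟨q, ?_⟩
      apply Finset.mem_union_right
      apply Finset.mem_image.mpr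
      refine ⟨e q, ?_, rfl⟩
      exact Finset.mem_biUnion.mpr ⟨e p, hS, Finset.mem_image.mpr
        ⟨e, Finset.mem_filter.mpr ⟨he, rfl⟩, rfl⟩⟩
    · refine ⟨p, ?_⟩
      apply Finset.mem_union_left
      apply Finset.mem_image.mpr
      exact ⟨e p, Finset.mem_sdiff.mpr ⟨Finset.mem_image_of_mem _ he, hS⟩, rfl⟩
  have hCcard : C.card ≤ A.card - S0.card + (NS S0).card := by
    refine le_trans (Finset.card_union_le _ _) ?_
    refine add_le_add ?_ Finset.card_image_le
    refine le_trans Finset.card_image_le ?_
    rw [Finset.card_sdiff_of_subset hS0A]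
  have hk : k ≤ C.card := by
    by_contra hlt
    exact hno C (by omega) hCcover
  have hS0le : S0.card ≤ A.card := Finset.card_le_card hS0A
  -- Hall for the thickened neighbourhoods
  let t : {a // a ∈ A} → Finset (V ⊕ ℕ) := fun a =>
    (N a).image Sum.inl ∪ (Finset.range d).image Sum.inr
  have hall : ∀ s : Finset {a // a ∈ A}, s.card ≤ (s.biUnion t).card := by
    intro s
    by_cases hs : s.Nonempty
    · let s' : Finset V := s.image Subtype.val
      have hs'A : s' ∈ A.powerset := by
        apply Finset.mem_powerset.mpr
        intro a ha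
        obtain ⟨b, _, rfl⟩ := Finset.mem_image.mp ha
        exact b.2
      have hcard : s'.card = s.card := Finset.card_image_of_injective _ Subtype.val_injective
      have h1 := hmax s' hs'A
      have h2 : (NS s').card + d ≤ (s.biUnion t).card := by
        have hsub : ((NS s').image Sum.inl ∪ (Finset.range d).image Sum.inr) ⊆ s.biUnion t := by
          intro x hx
          rw [Finset.mem_union] at hx
          rcases hx with hx | hx
          · obtain ⟨b, hb, rfl⟩ := Finset.mem_image.mp hx
            obtain ⟨a, ha, hab⟩ := Finset.mem_biUnion.mp hb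
            obtain ⟨a', ha', rfl⟩ := Finset.mem_image.mp ha
            exact Finset.mem_biUnion.mpr ⟨a', ha', Finset.mem_union_left _
              (Finset.mem_image_of_mem _ hab)⟩
          · obtain ⟨a0, ha0⟩ := hs
            exact Finset.mem_biUnion.mpr ⟨a0, ha0, Finset.mem_union_right _ hx⟩
        refine le_trans ?_ (Finset.card_le_card hsub)
        rw [Finset.card_union_of_disjoint, Finset.card_image_of_injective _ Sum.inl_injective,
          Finset.card_image_of_injective _ Sum.inr_injective, Finset.card_range]
        rw [Finset.disjoint_left]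
        intro x hx hx'
        obtain ⟨b, _, rfl⟩ := Finset.mem_image.mp hx
        obtain ⟨c, _, hc⟩ := Finset.mem_image.mp hx'
        cases hc
      have h3 : s'.card ≤ (NS s').card + defi s' := by
        simp only [defi]
        omega
      omega
    · rw [Finset.not_nonempty_iff_eq_empty] at hs
      subst hs
      simp
  obtain ⟨f, hfinj, hft⟩ := (Finset.all_card_le_biUnion_card_iff_exists_injective t).mp hall
  -- the elements sent to genuine neighbours
  let good : Finset {a // a ∈ A} := A.attach.filter (fun a => ∃ b, f a = Sum.inl b)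
  let bad : Finset {a // a ∈ A} := A.attach.filter (fun a => ¬ ∃ b, f a = Sum.inl b)
  have hbad : bad.card ≤ d := by
    have hmaps : ∀ a ∈ bad, f a ∈ (Finset.range d).image (Sum.inr : ℕ → V ⊕ ℕ) := by
      intro a ha
      have h1 := (Finset.mem_filter.mp ha).2
      have h2 := hft a
      rw [Finset.mem_union] at h2
      rcases h2 with h2 | h2
      · obtain ⟨b, _, hb⟩ := Finset.mem_image.mp h2
        exact absurd ⟨b, hb.symm⟩ h1
      · exact h2
    have := Finset.card_le_card_of_injOn f hmaps (fun a _ b _ h => hfinj h)
    refine le_trans this ?_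
    refine le_trans Finset.card_image_le ?_
    simp
  have hgood : k ≤ good.card := by
    have hsplit : good.card + bad.card = A.card := by
      have := Finset.card_filter_add_card_filter_not (s := A.attach)
        (fun a => ∃ b, f a = Sum.inl b)
      simpa [good, bad] using this
    have hdS : d = S0.card - (NS S0).card := rfl
    omega
  -- a witness edge for each good element
  have hw : ∀ a : {a // a ∈ good}, ∃ e ∈ H, e p = a.1.1 ∧ f a.1 = Sum.inl (e q) := by
    rintro ⟨a, ha⟩
    obtain ⟨b, hb⟩ := (Finset.mem_filter.mp ha).2
    have h2 := hft a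
    rw [hb, Finset.mem_union] at h2
    rcases h2 with h2 | h2
    · obtain ⟨c, hc, hcb⟩ := Finset.mem_image.mp h2
      have hcb' : c = b := Sum.inl_injective hcb
      subst hcb'
      obtain ⟨e, he, hec⟩ := Finset.mem_image.mp hc
      obtain ⟨he1, he2⟩ := Finset.mem_filter.mp he
      exact ⟨e, he1, he2, by rw [hb, hec]⟩
    · obtain ⟨c, _, hc⟩ := Finset.mem_image.mp h2
      cases hc
  choose w hw1 hw2 hw3 using hw
  -- the list
  let L0 : List {a // a ∈ good} := good.attach.toList
  have hL0nd : L0.Nodup := Finset.nodup_toList _
  let L1 : List (Fin r → V) := L0.map w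
  have hpw : L1.Pairwise (fun a b => a p ≠ b p ∧ a q ≠ b q) := by
    rw [List.pairwise_map]
    refine List.Pairwise.imp_of_mem ?_ hL0nd
    intro a b _ _ hab
    constructor
    · rw [hw2 a, hw2 b]
      exact fun h => hab (Subtype.ext (Subtype.ext h))
    · intro h
      apply hab
      apply Subtype.ext
      apply hfinj
      rw [hw3 a, hw3 b, h]
  have hlen : k ≤ L1.length := by
    simp only [L1, L0, List.length_map, Finset.length_toList, Finset.card_attach]
    exact hgood
  refine ⟨L1.take k, by simp [hlen], ?_, hpw.sublist (List.take_sublist _ _)⟩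
  intro x hx
  have hx' := List.mem_of_mem_take hx
  obtain ⟨a, _, rfl⟩ := List.mem_map.mp hx'
  exact hw1 a

end Vale.Agent.P045
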